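import Mathlib

/-! Definitions used in the statement for the AMUC and AUC renorming question. -/

namespace Vale.Agent.Lib.P069t

/-- `cof X`: the closed linear subspaces of finite codimension. -/
def cof (X : Type) [NormedAddCommGroup X] [NormedSpace ℝ X] : Set (Submodule ℝ X) :=
  {F | IsClosed (F : Set X) ∧ FiniteDimensional ℝ (X ⧸ F)}

/-- `N` is a norm on `X` equivalent to the given norm of `X`. -/
structure IsEquivalentNorm {X : Type} [NormedAddCommGroup X] [NormedSpace ℝ X]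
    (N : X → ℝ) : Prop where
  add_le : ∀ x y, N (x + y) ≤ N x + N y
  smul_eq : ∀ (c : ℝ) (x : X), N (c • x) = |c| * N x
  bounds : ∃ a b : ℝ, 0 < a ∧ 0 < b ∧ ∀ x, a * ‖x‖ ≤ N x ∧ N x ≤ b * ‖x‖

/-- `N` is asymptotically uniformly convex: the modulus
`inf_{N x = 1} sup_{F ∈ cof X} inf_{y ∈ F, N y = 1} (N (x + t y) - 1)` is positive for all `t > 0`,
unfolded as the existence of a positive lower bound `δ`. -/
def IsAUC {X : Type} [NormedAddCommGroup X] [NormedSpace ℝ X] (N : X → ℝ) : Prop :=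
  ∀ t : ℝ, 0 < t → ∃ δ : ℝ, 0 < δ ∧ ∀ x : X, N x = 1 → ∃ F ∈ cof X, ∀ y ∈ F, N y = 1 →
    1 + δ ≤ N (x + t • y)

/-- `N` is asymptotically midpoint uniformly convex: the modulus
`inf_{N x = 1} sup_{F ∈ cof X} inf_{y ∈ F, N y = 1} (max (N (x + t y)) (N (x - t y)) - 1)`
is positive for all `t > 0`, unfolded as the existence of a positive lower bound `δ`. -/
def IsAMUC {X : Type} [NormedAddCommGroup X] [NormedSpace ℝ X] (N : X → ℝ) : Prop :=
  ∀ t : ℝ, 0 < t → ∃ δ : ℝ, 0 < δ ∧ ∀ x : X, N x = 1 → ∃ F ∈ cof X, ∀ y ∈ F, N y = 1 →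
    1 + δ ≤ max (N (x + t • y)) (N (x - t • y))

end Vale.Agent.Lib.P069t
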