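import Vale.Agent.Lib.P069t.Step
import Vale.Agent.Lib.P069t.Defs

/-! Every node is AMUC, with a modulus that does not depend on the node. -/

namespace Vale.Agent.Lib.P069t

open scoped ENNReal Topology
open Filter

noncomputable section

/-- A finite set of functionals cuts out a closed subspace of finite codimension. -/
lemma exists_cof_of_finite {X : Type} [NormedAddCommGroup X] [NormedSpace ℝ X]
    (S : Set (StrongDual ℝ X)) (hS : S.Finite) :
    ∃ F ∈ cof X, ∀ y, y ∈ F ↔ ∀ f ∈ S, f y = 0 := by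
  have : Finite S := hS
  let L : X →ₗ[ℝ] (S → ℝ) := LinearMap.pi fun f => (f.1 : X →ₗ[ℝ] ℝ)
  have hmem : ∀ y, y ∈ LinearMap.ker L ↔ ∀ f ∈ S, f y = 0 := by
    intro y
    rw [LinearMap.mem_ker]
    constructor
    · intro h f hf
      have := congrFun h ⟨f, hf⟩
      simpa [L] using this
    · intro h
      funext f
      simpa [L] using h f.1 f.2
  refine ⟨LinearMap.ker L, ⟨?_, ?_⟩, hmem⟩
  · have : ((LinearMap.ker L : Submodule ℝ X) : Set X) = ⋂ f ∈ S, {y | f y = 0} := by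
      ext y
      simp only [SetLike.mem_coe, hmem, Set.mem_iInter, Set.mem_ofPred_eq]
    rw [this]
    exact isClosed_biInter fun f _ => isClosed_eq f.continuous continuous_const
  · exact (L.quotKerEquivRange).symm.finiteDimensional

/-- The lower bound for the gain obtained from the potential. -/
lemma gain_of_bq {d P Q K t : ℝ} (hd : 0 ≤ d) (hP0 : 0 ≤ P) (hQ0 : 0 ≤ Q) (hP : P ≤ K) (hQ : Q ≤ K)
    (hK : 0 < K) (ht : 0 < t)
    (h : t ^ 2 / 8 ≤ 2 * Real.sqrt (d * P * Q * Real.sqrt (P ^ 2 + Q ^ 2))) :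
    t ^ 4 / (512 * K ^ 3) ≤ d := by
  have h1 : Real.sqrt (P ^ 2 + Q ^ 2) ≤ 2 * K := by
    refine Real.sqrt_le_iff.2 ⟨by positivity, ?_⟩
    nlinarith
  have h2 : d * P * Q * Real.sqrt (P ^ 2 + Q ^ 2) ≤ d * K * K * (2 * K) := by
    have hs : 0 ≤ Real.sqrt (P ^ 2 + Q ^ 2) := Real.sqrt_nonneg _
    have a1 : d * P ≤ d * K := mul_le_mul_of_nonneg_left hP hd
    have a2 : d * P * Q ≤ d * K * K :=
      mul_le_mul a1 hQ hQ0 (by positivity)
    exact mul_le_mul a2 h1 hs (by positivity)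
  have h3 : t ^ 2 / 16 ≤ Real.sqrt (d * K * K * (2 * K)) := by
    have := Real.sqrt_le_sqrt h2
    linarith
  have h4 : (t ^ 2 / 16) ^ 2 ≤ d * K * K * (2 * K) := by
    have h5 := pow_le_pow_left₀ (by positivity) h3 2
    rwa [Real.sq_sqrt (by positivity)] at h5
  rw [div_le_iff₀ (by positivity)]
  nlinarith

/-- One sign of the AMUC estimate. -/
lemma Node.norm_gain (Z : Node) {z w : Z.carrier} (hz : z ∈ Z.Dn) (hz0 : z ≠ 0)
    (hw : ∀ f ∈ Z.Fn z, f w = 0) {t : ℝ} (ht : 0 < t) (hznorm : ‖z‖ ≤ 3 / 2) (hwnorm : ‖w‖ = t)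
    (hB : t ^ 2 / 8 ≤ bq (Z.U (z + w) - Z.U z) (Z.U z) (Z.U (-z))) :
    ‖z‖ + 2 * (t ^ 4 / (512 * (4 + t) ^ 3)) ≤ ‖z + w‖ := by
  set d := Z.U (z + w) - Z.U z with hd
  have hlin := Z.far_lin z hz hz0 w hw
  have hmono := Z.far_mono z hz hz0 w hw
  have hd0 : 0 ≤ d := by simp only [hd]; linarith
  have hneg := Z.U_neg_add z w hlin
  have hP : 2 * Z.U z + d = Z.U z + Z.U (z + w) := by simp only [hd]; ring
  have hQ : 2 * Z.U (-z) + d = Z.U (-z) + Z.U (-(z + w)) := by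
    rw [hneg]; simp only [hd]; ring
  have hzw : ‖z + w‖ ≤ 3 / 2 + t := by
    refine (norm_add_le _ _).trans ?_
    rw [hwnorm]; linarith
  have hK : 0 < 4 + t := by linarith
  have hnew : ‖z + w‖ = ‖z‖ + 2 * d := by
    rw [Z.norm_eq (z + w), Z.norm_eq z, hneg]
    simp only [hd]; ring
  have hgain := gain_of_bq (K := 4 + t) (t := t) (P := 2 * Z.U z + d) (Q := 2 * Z.U (-z) + d) hd0
    (by have := Z.U_nonneg z; linarith) (by have := Z.U_nonneg (-z); linarith)
    (by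
      rw [hP]
      have h1 := Z.U_le_norm z
      have h2 := Z.U_le_norm (z + w)
      linarith)
    (by
      rw [hQ]
      have h1 := Z.U_neg_le_norm z
      have h2 := Z.U_neg_le_norm (z + w)
      linarith)
    hK ht hB
  rw [hnew]
  linarith

/-- Every node is AMUC. -/
theorem Node.isAMUC (Z : Node) : IsAMUC (fun x : Z.carrier => ‖x‖) := by
  intro t ht
  set d0 : ℝ := t ^ 4 / (512 * (4 + t) ^ 3) with hd0
  have hd0pos : 0 < d0 := by positivity
  refine ⟨d0, hd0pos, fun x hx => ?_⟩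
  simp only at hx
  set η : ℝ := min (1 / 2) (d0 / 2) with hη
  have hηpos : 0 < η := lt_min (by norm_num) (by positivity)
  obtain ⟨z, hz, hxz⟩ := Z.dense x η hηpos
  have hη1 : η ≤ 1 / 2 := min_le_left _ _
  have hη2 : η ≤ d0 / 2 := min_le_right _ _
  have hzlow : 1 - η ≤ ‖z‖ := by
    have : ‖x‖ ≤ ‖x - z‖ + ‖z‖ := by
      simpa using norm_add_le (x - z) z
    linarith
  have hzhigh : ‖z‖ ≤ 3 / 2 := by
    have : ‖z‖ ≤ ‖x‖ + ‖x - z‖ := by
      have e : z = x - (x - z) := by abel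
      rw [e]
      refine (norm_sub_le _ _).trans ?_
      simp
    linarith
  have hz0 : z ≠ 0 := by
    intro h0
    rw [h0, norm_zero] at hzlow
    linarith
  obtain ⟨F, hF, hFmem⟩ := exists_cof_of_finite (Z.Fn z) (Z.Fn_fin z hz)
  refine ⟨F, hF, fun y hy hy1 => ?_⟩
  simp only at hy1 ⊢
  have hyfar := (hFmem y).1 hy
  -- the scaled vector
  set w : Z.carrier := t • y with hw
  have hwnorm : ‖w‖ = t := by
    rw [hw, norm_smul, hy1, mul_one, Real.norm_eq_abs, abs_of_pos ht]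
  have hwfar : ∀ f ∈ Z.Fn z, f w = 0 := fun f hf => by
    rw [hw, map_smul, hyfar f hf, smul_zero]
  have hwfar' : ∀ f ∈ Z.Fn z, f (-w) = 0 := fun f hf => by
    rw [map_neg, hwfar f hf, neg_zero]
  have hlin := Z.far_lin z hz hz0 w hwfar
  have hUw : Z.U w = t / 2 := by
    have h1 := Z.U_sub w
    rw [hlin] at h1
    have h2 := Z.norm_eq w
    rw [hwnorm] at h2
    linarith
  have hkey := Z.far_key z hz hz0 w hwfar
  rw [hUw] at hkey
  have hcase : t ^ 2 / 8 ≤ bq (Z.U (z + w) - Z.U z) (Z.U z) (Z.U (-z)) ∨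
      t ^ 2 / 8 ≤ bq (Z.U (z + -w) - Z.U z) (Z.U z) (Z.U (-z)) := by
    by_contra hcon
    push Not at hcon
    nlinarith [hcon.1, hcon.2]
  have hfin : ∀ v : Z.carrier, ‖z‖ + 2 * d0 ≤ ‖z + v‖ → 1 + d0 ≤ ‖x + v‖ := by
    intro v hv
    have e : z + v = (x + v) - (x - z) := by abel
    have h1 : ‖z + v‖ ≤ ‖x + v‖ + ‖x - z‖ := by
      rw [e]; exact norm_sub_le _ _
    linarith
  rcases hcase with hc | hc
  · have h1 := Z.norm_gain hz hz0 hwfar ht hzhigh hwnorm hc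
    exact (hfin w h1).trans (le_max_left _ _)
  · have h1 := Z.norm_gain hz hz0 hwfar' ht hzhigh (by rw [norm_neg]; exact hwnorm) hc
    refine (hfin (-w) h1).trans (le_trans ?_ (le_max_right _ _))
    rw [sub_eq_add_neg]

end

end Vale.Agent.Lib.P069t
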