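import Vale.Agent.Lib.P069t.RealIneq

/-! The recursive construction of the tree variation spaces.

A `Node` is a Banach space with an asymmetric norm `U`, such that `‖x‖ = U x + U (-x)`.
The step construction forms `ℝ × ℓ²(Y m)` with the new asymmetric norm
`U (x₀, (xₘ)) = max (‖(U xₘ)‖₂) (‖(U (-xₘ))‖₂ + x₀)`.
-/

namespace Vale.Agent.Lib.P069t

open scoped ENNReal

noncomputable section

/-- A space of the recursive family, with all the properties carried through the recursion. -/
structure Node where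
  carrier : Type
  [grp : NormedAddCommGroup carrier]
  [sp : NormedSpace ℝ carrier]
  [cpl : CompleteSpace carrier]
  U : carrier → ℝ
  lin : StrongDual ℝ carrier
  Dn : Set carrier
  Fn : carrier → Set (StrongDual ℝ carrier)
  U_nonneg : ∀ x, 0 ≤ U x
  U_add : ∀ x y, U (x + y) ≤ U x + U y
  U_smul : ∀ (c : ℝ) (x : carrier), 0 ≤ c → U (c • x) = c * U x
  norm_eq : ∀ x, ‖x‖ = U x + U (-x)
  U_sub : ∀ x, U x - U (-x) = lin x
  zero_mem : (0 : carrier) ∈ Dn
  dense : ∀ (x : carrier) (ε : ℝ), 0 < ε → ∃ z ∈ Dn, ‖x - z‖ < ε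
  Fn_fin : ∀ x ∈ Dn, (Fn x).Finite
  far_lin : ∀ x ∈ Dn, x ≠ 0 → ∀ y, (∀ f ∈ Fn x, f y = 0) → lin y = 0
  far_mono : ∀ x ∈ Dn, x ≠ 0 → ∀ y, (∀ f ∈ Fn x, f y = 0) → U x ≤ U (x + y)
  far_key : ∀ x ∈ Dn, x ≠ 0 → ∀ y, (∀ f ∈ Fn x, f y = 0) →
    (U y) ^ 2 ≤ bq (U (x + y) - U x) (U x) (U (-x)) + bq (U (x + -y) - U x) (U x) (U (-x))
  refl : Function.Surjective (NormedSpace.inclusionInDoubleDual ℝ carrier)

attribute [instance] Node.grp Node.sp Node.cpl

namespace Node

variable (Z : Node)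

lemma U_zero : Z.U 0 = 0 := by
  have := Z.U_smul 0 0 le_rfl
  simpa using this

lemma U_le_norm (x : Z.carrier) : Z.U x ≤ ‖x‖ := by
  rw [Z.norm_eq]
  linarith [Z.U_nonneg (-x)]

lemma U_neg_le_norm (x : Z.carrier) : Z.U (-x) ≤ ‖x‖ := by
  rw [Z.norm_eq]
  linarith [Z.U_nonneg x]

end Node

/-! ### Square summable sequences of reals -/

section L2

lemma sum_sq_add_le' {a b : ℕ → ℝ} (ha : Summable fun m => a m ^ 2)
    (hb : Summable fun m => b m ^ 2) (s : Finset ℕ) :
    ∑ m ∈ s, (a m + b m) ^ 2 ≤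
      (Real.sqrt (∑' m, a m ^ 2) + Real.sqrt (∑' m, b m ^ 2)) ^ 2 := by
  refine (sum_sq_add_le s a b).trans ?_
  have h1 : ∑ m ∈ s, a m ^ 2 ≤ ∑' m, a m ^ 2 :=
    ha.sum_le_tsum s fun _ _ => by positivity
  have h2 : ∑ m ∈ s, b m ^ 2 ≤ ∑' m, b m ^ 2 :=
    hb.sum_le_tsum s fun _ _ => by positivity
  have h3 := Real.sqrt_le_sqrt h1
  have h4 := Real.sqrt_le_sqrt h2
  exact pow_le_pow_left₀ (by positivity) (by linarith) 2

lemma l2_summable_add {a b : ℕ → ℝ} (ha : Summable fun m => a m ^ 2)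
    (hb : Summable fun m => b m ^ 2) : Summable fun m => (a m + b m) ^ 2 :=
  summable_of_sum_le (fun _ => by positivity) (sum_sq_add_le' ha hb)

lemma l2_add_le {a b : ℕ → ℝ} (ha : Summable fun m => a m ^ 2)
    (hb : Summable fun m => b m ^ 2) :
    Real.sqrt (∑' m, (a m + b m) ^ 2) ≤
      Real.sqrt (∑' m, a m ^ 2) + Real.sqrt (∑' m, b m ^ 2) := by
  refine Real.sqrt_le_iff.2 ⟨by positivity, ?_⟩
  exact Real.tsum_le_of_sum_le (fun _ => by positivity) (sum_sq_add_le' ha hb)

/-- Splitting off a finite part of a sum of nonnegative terms. -/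
lemma tsum_split {f : ℕ → ℝ} (hf : Summable f) (I : Finset ℕ) :
    ∑' m, f m = ∑ m ∈ I, f m + ∑' m, (if m ∈ I then 0 else f m) := by
  have h1 : Summable fun m => if m ∈ I then f m else 0 :=
    summable_of_ne_finset_zero (s := I) fun m hm => by simp [hm]
  have h2 : Summable fun m => if m ∈ I then 0 else f m := by
    have := hf.sub h1
    refine this.congr fun m => ?_
    by_cases h : m ∈ I <;> simp [h]
  have h3 : ∑' m, (if m ∈ I then f m else 0) = ∑ m ∈ I, f m := by
    rw [tsum_eq_sum (s := I) fun m hm => by simp [hm]]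
    exact Finset.sum_congr rfl fun m hm => by simp [hm]
  rw [← h3, ← h1.tsum_add h2]
  refine tsum_congr fun m => ?_
  by_cases h : m ∈ I <;> simp [h]

lemma summable_split {f : ℕ → ℝ} (hf : Summable f) (I : Finset ℕ) :
    Summable fun m => if m ∈ I then 0 else f m := by
  have h1 : Summable fun m => if m ∈ I then f m else 0 :=
    summable_of_ne_finset_zero (s := I) fun m hm => by simp [hm]
  refine (hf.sub h1).congr fun m => ?_
  by_cases h : m ∈ I <;> simp [h]

end L2

/-! ### The step construction -/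

variable {Y : ℕ → Node}

/-- The `ℓ²` sum of the children. -/
abbrev Ch (Y : ℕ → Node) : Type := lp (fun m => (Y m).carrier) 2

lemma summable_norm_sq (x : Ch Y) : Summable fun m => ‖x m‖ ^ 2 := by
  have := (lp.memℓp x).summable (p := 2) (by norm_num)
  simpa using this

lemma norm_sq_eq (x : Ch Y) : ‖x‖ ^ 2 = ∑' m, ‖x m‖ ^ 2 := by
  have := lp.norm_rpow_eq_tsum (p := 2) (by norm_num) x
  simpa using this

lemma summable_U_sq (x : Ch Y) : Summable fun m => ((Y m).U (x m)) ^ 2 :=
  (summable_norm_sq x).of_nonneg_of_le (fun _ => by positivity)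
    fun m => pow_le_pow_left₀ ((Y m).U_nonneg _) ((Y m).U_le_norm _) 2

/-- The `ℓ²` norm of the sequence of `U` values. -/
def R (x : Ch Y) : ℝ := Real.sqrt (∑' m, ((Y m).U (x m)) ^ 2)

lemma R_nonneg (x : Ch Y) : 0 ≤ R x := Real.sqrt_nonneg _

lemma R_sq (x : Ch Y) : R x ^ 2 = ∑' m, ((Y m).U (x m)) ^ 2 :=
  Real.sq_sqrt (tsum_nonneg fun _ => by positivity)

lemma R_zero : R (0 : Ch Y) = 0 := by
  unfold R
  have : ∀ m, ((Y m).U ((0 : Ch Y) m)) ^ 2 = 0 := fun m => by
    have : (0 : Ch Y) m = 0 := rfl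
    rw [this, (Y m).U_zero]; simp
  rw [tsum_congr this]
  simp

lemma R_mono {x y : Ch Y} (h : ∀ m, (Y m).U (x m) ≤ (Y m).U (y m)) : R x ≤ R y := by
  apply Real.sqrt_le_sqrt
  exact (summable_U_sq x).tsum_le_tsum
    (fun m => pow_le_pow_left₀ ((Y m).U_nonneg _) (h m) 2) (summable_U_sq y)

lemma R_add (x y : Ch Y) : R (x + y) ≤ R x + R y := by
  have h1 : R (x + y) ≤ Real.sqrt (∑' m, ((Y m).U (x m) + (Y m).U (y m)) ^ 2) := by
    apply Real.sqrt_le_sqrt
    refine (summable_U_sq (x + y)).tsum_le_tsum (fun m => ?_)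
      (l2_summable_add (summable_U_sq x) (summable_U_sq y))
    exact pow_le_pow_left₀ ((Y m).U_nonneg _) ((Y m).U_add _ _) 2
  exact h1.trans (l2_add_le (summable_U_sq x) (summable_U_sq y))

lemma R_smul (c : ℝ) (hc : 0 ≤ c) (x : Ch Y) : R (c • x) = c * R x := by
  unfold R
  have : ∀ m, ((Y m).U ((c • x) m)) ^ 2 = c ^ 2 * ((Y m).U (x m)) ^ 2 := fun m => by
    have e : (c • x) m = c • x m := rfl
    rw [e, (Y m).U_smul c _ hc]; ring
  simp only [this]
  rw [tsum_mul_left, Real.sqrt_mul (by positivity), Real.sqrt_sq hc]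

lemma R_le_norm (x : Ch Y) : R x ≤ ‖x‖ := by
  refine Real.sqrt_le_iff.2 ⟨norm_nonneg _, ?_⟩
  rw [norm_sq_eq]
  exact (summable_U_sq x).tsum_le_tsum
    (fun m => pow_le_pow_left₀ ((Y m).U_nonneg _) ((Y m).U_le_norm _) 2) (summable_norm_sq x)

lemma norm_le_R (x : Ch Y) : ‖x‖ ≤ R x + R (-x) := by
  have h0 : ‖x‖ = Real.sqrt (∑' m, ((Y m).U (x m) + (Y m).U ((-x) m)) ^ 2) := by
    rw [← Real.sqrt_sq (norm_nonneg x), norm_sq_eq]
    congr 1
    refine tsum_congr fun m => ?_
    rw [(Y m).norm_eq (x m)]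
    rfl
  rw [h0]
  exact l2_add_le (summable_U_sq x) (summable_U_sq (-x))

/-- The carrier of the step construction. -/
def StepC (Y : ℕ → Node) : Type := ℝ × Ch Y

instance : AddCommGroup (StepC Y) := inferInstanceAs (AddCommGroup (ℝ × Ch Y))
instance : Module ℝ (StepC Y) := inferInstanceAs (Module ℝ (ℝ × Ch Y))

/-- The asymmetric norm of the step construction. -/
def stepU (x : StepC Y) : ℝ := max (R x.2) (R (-x.2) + x.1)

lemma add_fst (x y : StepC Y) : (x + y).1 = x.1 + y.1 := rfl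
lemma add_snd (x y : StepC Y) : (x + y).2 = x.2 + y.2 := rfl
lemma neg_fst (x : StepC Y) : (-x).1 = -x.1 := rfl
lemma neg_snd (x : StepC Y) : (-x).2 = -x.2 := rfl
lemma smul_fst (c : ℝ) (x : StepC Y) : (c • x).1 = c * x.1 := rfl
lemma smul_snd (c : ℝ) (x : StepC Y) : (c • x).2 = c • x.2 := rfl
lemma zero_fst : (0 : StepC Y).1 = 0 := rfl
lemma zero_snd : (0 : StepC Y).2 = 0 := rfl

lemma stepU_neg (x : StepC Y) : stepU (-x) = max (R (-x.2)) (R x.2 - x.1) := by
  unfold stepU
  rw [neg_snd, neg_fst, neg_neg, sub_eq_add_neg]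

lemma stepU_nonneg (x : StepC Y) : 0 ≤ stepU x := (R_nonneg _).trans (le_max_left _ _)

lemma stepU_sub (x : StepC Y) : stepU x - stepU (-x) = x.1 := by
  rw [stepU_neg]
  unfold stepU
  rcases le_total (R x.2) (R (-x.2) + x.1) with h | h
  · rw [max_eq_right h, max_eq_left (by linarith)]
    ring
  · rw [max_eq_left h, max_eq_right (by linarith)]
    ring

lemma stepU_add (x y : StepC Y) : stepU (x + y) ≤ stepU x + stepU y := by
  unfold stepU
  rw [add_snd, add_fst]
  apply max_le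
  · have := R_add x.2 y.2
    have h1 := le_max_left (R x.2) (R (-x.2) + x.1)
    have h2 := le_max_left (R y.2) (R (-y.2) + y.1)
    linarith
  · have e : -(x.2 + y.2) = -x.2 + -y.2 := neg_add _ _
    have := R_add (-x.2) (-y.2)
    rw [e]
    have h1 := le_max_right (R x.2) (R (-x.2) + x.1)
    have h2 := le_max_right (R y.2) (R (-y.2) + y.1)
    linarith

lemma stepU_smul (c : ℝ) (hc : 0 ≤ c) (x : StepC Y) : stepU (c • x) = c * stepU x := by
  unfold stepU
  rw [smul_snd, smul_fst]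
  have e : -(c • x.2) = c • (-x.2) := (smul_neg c x.2).symm
  rw [e, R_smul c hc, R_smul c hc]
  rcases le_total (R x.2) (R (-x.2) + x.1) with h | h
  · rw [max_eq_right h, max_eq_right (by nlinarith)]
    ring
  · rw [max_eq_left h, max_eq_left (by nlinarith)]

/-- The norm of the step construction. -/
def stepN (x : StepC Y) : ℝ := stepU x + stepU (-x)

lemma stepN_fst (x : StepC Y) : |x.1| ≤ stepN x := by
  unfold stepN
  have h := stepU_sub x
  have h1 := stepU_nonneg x
  have h2 := stepU_nonneg (-x)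
  rw [abs_le]
  constructor <;> linarith

lemma stepN_snd (x : StepC Y) : ‖x.2‖ ≤ stepN x := by
  unfold stepN
  have h := norm_le_R x.2
  have h1 : R x.2 ≤ stepU x := le_max_left _ _
  have h2 : R (-x.2) ≤ stepU (-x) := by
    rw [stepU_neg]; exact le_max_left _ _
  linarith

lemma stepN_le (x : StepC Y) : stepN x ≤ |x.1| + 2 * ‖x.2‖ := by
  unfold stepN
  rw [stepU_neg]
  unfold stepU
  have h1 := R_le_norm x.2
  have h2 : R (-x.2) ≤ ‖x.2‖ := by simpa using R_le_norm (-x.2)
  have h3 := R_nonneg x.2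
  have h4 := R_nonneg (-x.2)
  have h5 := le_abs_self x.1
  have h6 := neg_abs_le x.1
  have h7 : 0 ≤ ‖x.2‖ := norm_nonneg _
  have h8 : 0 ≤ |x.1| := abs_nonneg _
  rcases le_total (R x.2) (R (-x.2) + x.1) with h | h <;>
  rcases le_total (R (-x.2)) (R x.2 - x.1) with h' | h'
  · rw [max_eq_right h, max_eq_right h']; linarith
  · rw [max_eq_right h, max_eq_left h']; linarith
  · rw [max_eq_left h, max_eq_right h']; linarith
  · rw [max_eq_left h, max_eq_left h']; linarith

/-- The norm of the step construction as a group norm. -/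
def stepNorm : AddGroupNorm (StepC Y) where
  toFun := stepN
  map_zero' := by
    unfold stepN stepU
    simp [zero_fst, zero_snd, R_zero]
  add_le' x y := by
    unfold stepN
    have h1 := stepU_add x y
    have h2 := stepU_add (-x) (-y)
    have e : -(x + y) = -x + -y := neg_add _ _
    rw [e]
    linarith
  neg' x := by
    unfold stepN
    rw [neg_neg, add_comm]
  eq_zero_of_map_eq_zero' x h := by
    have h1 := stepN_fst x
    have h2 := stepN_snd x
    rw [h] at h1 h2
    have h3 : x.1 = 0 := abs_nonpos_iff.1 h1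
    have h4 : x.2 = 0 := norm_le_zero_iff.1 h2
    exact Prod.ext h3 h4

instance : NormedAddCommGroup (StepC Y) := stepNorm.toNormedAddCommGroup

lemma norm_def (x : StepC Y) : ‖x‖ = stepN x := rfl

instance : NormedSpace ℝ (StepC Y) where
  norm_smul_le c x := by
    rw [norm_def, norm_def, Real.norm_eq_abs]
    rcases le_total 0 c with hc | hc
    · unfold stepN
      have e : -(c • x) = c • (-x) := (smul_neg c x).symm
      rw [e, stepU_smul c hc, stepU_smul c hc, abs_of_nonneg hc]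
      ring_nf
      exact le_rfl
    · unfold stepN
      have e1 : c • x = (-c) • (-x) := by rw [neg_smul_neg]
      have e2 : -(c • x) = (-c) • x := by rw [neg_smul]
      rw [e2, e1, stepU_smul (-c) (by linarith), stepU_smul (-c) (by linarith),
        abs_of_nonpos hc]
      ring_nf
      exact le_rfl

end

end Vale.Agent.Lib.P069t
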