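import Mathlib

/-! Real inequalities behind the AMUC estimate for the tree variation norm. -/

namespace Vale.Agent.Lib.P069t

noncomputable section

/-- The potential: `2 * sqrt (d * p * q * sqrt (p^2 + q^2))` with `p = 2 u + d`, `q = 2 v + d`. -/
def bq (d u v : ℝ) : ℝ :=
  2 * Real.sqrt (d * (2 * u + d) * (2 * v + d) * Real.sqrt ((2 * u + d) ^ 2 + (2 * v + d) ^ 2))

lemma bq_comm (d u v : ℝ) : bq d u v = bq d v u := by
  unfold bq
  have h1 : (2 * u + d) ^ 2 + (2 * v + d) ^ 2 = (2 * v + d) ^ 2 + (2 * u + d) ^ 2 := by ring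
  rw [h1]
  congr 2
  ring

lemma bq_nonneg (d u v : ℝ) : 0 ≤ bq d u v := by
  unfold bq
  positivity

/-- Finite Minkowski inequality in squared form. -/
lemma sum_sq_add_le {ι : Type*} (I : Finset ι) (a b : ι → ℝ) :
    ∑ m ∈ I, (a m + b m) ^ 2 ≤
      (Real.sqrt (∑ m ∈ I, a m ^ 2) + Real.sqrt (∑ m ∈ I, b m ^ 2)) ^ 2 := by
  have hA : 0 ≤ ∑ m ∈ I, a m ^ 2 := Finset.sum_nonneg fun _ _ => by positivity
  have hB : 0 ≤ ∑ m ∈ I, b m ^ 2 := Finset.sum_nonneg fun _ _ => by positivity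
  have hC : ∑ m ∈ I, a m * b m ≤
      Real.sqrt (∑ m ∈ I, a m ^ 2) * Real.sqrt (∑ m ∈ I, b m ^ 2) :=
    Real.sum_mul_le_sqrt_mul_sqrt I a b
  have hE : ∑ m ∈ I, (a m + b m) ^ 2 =
      ∑ m ∈ I, a m ^ 2 + 2 * ∑ m ∈ I, a m * b m + ∑ m ∈ I, b m ^ 2 := by
    rw [Finset.mul_sum, ← Finset.sum_add_distrib, ← Finset.sum_add_distrib]
    exact Finset.sum_congr rfl fun _ _ => by ring
  rw [hE]
  have h1 := Real.sq_sqrt hA
  have h2 := Real.sq_sqrt hB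
  nlinarith

/-- The elementary final step. -/
lemma aux_final {g t G S : ℝ} (hg : 0 ≤ g) (ht : 0 ≤ t) (hG : g + t ≤ G) (hS : 0 ≤ S)
    (hGS : G ≤ S ^ 2) :
    2 * Real.sqrt g * S + t ≤ 2 * Real.sqrt G * S := by
  have hG0 : 0 ≤ G := by linarith
  set a := Real.sqrt g with ha
  set b := Real.sqrt G with hb
  have ha0 : 0 ≤ a := Real.sqrt_nonneg g
  have hb0 : 0 ≤ b := Real.sqrt_nonneg G
  have ha2 : a ^ 2 = g := Real.sq_sqrt hg
  have hb2 : b ^ 2 = G := Real.sq_sqrt hG0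
  have hab : a ≤ b := Real.sqrt_le_sqrt (by linarith)
  have hbS : b ≤ S := (abs_le_of_sq_le_sq' (by rw [hb2]; exact hGS) hS).2
  have h1 : t ≤ (b - a) * (b + a) := by nlinarith
  have h2 : (b - a) * (b + a) ≤ (b - a) * (2 * S) :=
    mul_le_mul_of_nonneg_left (by linarith) (by linarith)
  nlinarith

/-- The core inequality: superadditivity of the potential along one node. -/
theorem bq_core {ι : Type*} (I : Finset ι) (u v d : ι → ℝ)
    (hu : ∀ m, 0 ≤ u m) (hv : ∀ m, 0 ≤ v m) (hd : ∀ m, 0 ≤ d m)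
    {U V D t : ℝ} (hU : 0 ≤ U) (hV : 0 ≤ V) (hD : 0 ≤ D) (ht : 0 ≤ t)
    (h1 : ∑ m ∈ I, u m ^ 2 ≤ U ^ 2) (h2 : ∑ m ∈ I, (u m + d m) ^ 2 ≤ (U + D) ^ 2)
    (h3 : ∑ m ∈ I, v m ^ 2 ≤ V ^ 2) (h4 : ∑ m ∈ I, (v m + d m) ^ 2 ≤ (V + D) ^ 2)
    (hact : ∑ m ∈ I, d m * (2 * u m + d m) + t ≤ D * (2 * U + D)) :
    ∑ m ∈ I, bq (d m) (u m) (v m) + t ≤ bq D U V := by
  set p : ι → ℝ := fun m => 2 * u m + d m with hp
  set q : ι → ℝ := fun m => 2 * v m + d m with hq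
  set M : ι → ℝ := fun m => Real.sqrt (p m ^ 2 + q m ^ 2) with hM
  set P : ℝ := 2 * U + D with hP
  set Q : ℝ := 2 * V + D with hQ
  set MM : ℝ := Real.sqrt (P ^ 2 + Q ^ 2) with hMM
  have hp0 : ∀ m, 0 ≤ p m := fun m => by have := hu m; have := hd m; simp only [hp]; linarith
  have hq0 : ∀ m, 0 ≤ q m := fun m => by have := hv m; have := hd m; simp only [hq]; linarith
  have hM0 : ∀ m, 0 ≤ M m := fun m => Real.sqrt_nonneg _
  have hP0 : 0 ≤ P := by simp only [hP]; linarith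
  have hQ0 : 0 ≤ Q := by simp only [hQ]; linarith
  have hMM0 : 0 ≤ MM := Real.sqrt_nonneg _
  -- sums of squares
  have hsP : ∑ m ∈ I, p m ^ 2 ≤ P ^ 2 := by
    have := sum_sq_add_le I u (fun m => u m + d m)
    have e1 : Real.sqrt (∑ m ∈ I, u m ^ 2) ≤ U := Real.sqrt_le_iff.2 ⟨hU, h1⟩
    have e2 : Real.sqrt (∑ m ∈ I, (u m + d m) ^ 2) ≤ U + D :=
      Real.sqrt_le_iff.2 ⟨by linarith, h2⟩
    have e3 : ∑ m ∈ I, p m ^ 2 = ∑ m ∈ I, (u m + (u m + d m)) ^ 2 :=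
      Finset.sum_congr rfl fun m _ => by simp only [hp]; ring
    rw [e3]
    refine this.trans ?_
    have e4 : 0 ≤ Real.sqrt (∑ m ∈ I, u m ^ 2) := Real.sqrt_nonneg _
    have e5 : 0 ≤ Real.sqrt (∑ m ∈ I, (u m + d m) ^ 2) := Real.sqrt_nonneg _
    have e6 : Real.sqrt (∑ m ∈ I, u m ^ 2) + Real.sqrt (∑ m ∈ I, (u m + d m) ^ 2) ≤ P := by
      simp only [hP]; linarith
    exact pow_le_pow_left₀ (by linarith) e6 2
  have hsQ : ∑ m ∈ I, q m ^ 2 ≤ Q ^ 2 := by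
    have := sum_sq_add_le I v (fun m => v m + d m)
    have e1 : Real.sqrt (∑ m ∈ I, v m ^ 2) ≤ V := Real.sqrt_le_iff.2 ⟨hV, h3⟩
    have e2 : Real.sqrt (∑ m ∈ I, (v m + d m) ^ 2) ≤ V + D :=
      Real.sqrt_le_iff.2 ⟨by linarith, h4⟩
    have e3 : ∑ m ∈ I, q m ^ 2 = ∑ m ∈ I, (v m + (v m + d m)) ^ 2 :=
      Finset.sum_congr rfl fun m _ => by simp only [hq]; ring
    rw [e3]
    refine this.trans ?_
    have e4 : 0 ≤ Real.sqrt (∑ m ∈ I, v m ^ 2) := Real.sqrt_nonneg _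
    have e5 : 0 ≤ Real.sqrt (∑ m ∈ I, (v m + d m) ^ 2) := Real.sqrt_nonneg _
    have e6 : Real.sqrt (∑ m ∈ I, v m ^ 2) + Real.sqrt (∑ m ∈ I, (v m + d m) ^ 2) ≤ Q := by
      simp only [hQ]; linarith
    exact pow_le_pow_left₀ (by linarith) e6 2
  have hsM : ∑ m ∈ I, M m ^ 2 ≤ MM ^ 2 := by
    have e1 : ∑ m ∈ I, M m ^ 2 = ∑ m ∈ I, p m ^ 2 + ∑ m ∈ I, q m ^ 2 := by
      rw [← Finset.sum_add_distrib]
      refine Finset.sum_congr rfl fun m _ => ?_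
      simp only [hM]
      exact Real.sq_sqrt (by positivity)
    have e2 : MM ^ 2 = P ^ 2 + Q ^ 2 := Real.sq_sqrt (by positivity)
    rw [e1, e2]
    linarith
  -- the Cauchy estimate for the children
  set g : ℝ := ∑ m ∈ I, d m * p m with hg
  have hg0 : 0 ≤ g := Finset.sum_nonneg fun m _ => mul_nonneg (hd m) (hp0 m)
  have hqM : ∑ m ∈ I, q m * M m ≤ Q * MM := by
    refine (Real.sum_mul_le_sqrt_mul_sqrt I q M).trans ?_
    have e1 : Real.sqrt (∑ m ∈ I, q m ^ 2) ≤ Q := Real.sqrt_le_iff.2 ⟨hQ0, hsQ⟩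
    have e2 : Real.sqrt (∑ m ∈ I, M m ^ 2) ≤ MM := Real.sqrt_le_iff.2 ⟨hMM0, hsM⟩
    exact mul_le_mul e1 e2 (Real.sqrt_nonneg _) hQ0
  have hsum : ∑ m ∈ I, bq (d m) (u m) (v m) ≤ 2 * (Real.sqrt g * Real.sqrt (Q * MM)) := by
    have e0 : ∀ m, bq (d m) (u m) (v m) =
        2 * (Real.sqrt (d m * p m) * Real.sqrt (q m * M m)) := by
      intro m
      unfold bq
      rw [← Real.sqrt_mul (mul_nonneg (hd m) (hp0 m))]
      congr 2
      simp only [hp, hq, hM]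
      ring
    have e1 : ∑ m ∈ I, bq (d m) (u m) (v m) =
        2 * ∑ m ∈ I, Real.sqrt (d m * p m) * Real.sqrt (q m * M m) := by
      rw [Finset.mul_sum]
      exact Finset.sum_congr rfl fun m _ => e0 m
    rw [e1]
    have e2 := Real.sum_sqrt_mul_sqrt_le I (f := fun m => d m * p m) (g := fun m => q m * M m)
      (fun m => mul_nonneg (hd m) (hp0 m)) (fun m => mul_nonneg (hq0 m) (hM0 m))
    have e3 : Real.sqrt (∑ m ∈ I, q m * M m) ≤ Real.sqrt (Q * MM) := Real.sqrt_le_sqrt hqM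
    have e4 : Real.sqrt g * Real.sqrt (∑ m ∈ I, q m * M m) ≤ Real.sqrt g * Real.sqrt (Q * MM) :=
      mul_le_mul_of_nonneg_left e3 (Real.sqrt_nonneg _)
    have e5 : ∑ m ∈ I, Real.sqrt (d m * p m) * Real.sqrt (q m * M m) ≤
        Real.sqrt g * Real.sqrt (∑ m ∈ I, q m * M m) := e2
    linarith
  -- final step
  set G : ℝ := D * P with hGdef
  have hgt : g + t ≤ G := by simpa [hg, hGdef, hp, hP] using hact
  set S : ℝ := Real.sqrt (Q * MM) with hS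
  have hS0 : 0 ≤ S := Real.sqrt_nonneg _
  have hQD : D ≤ Q := by simp only [hQ]; linarith
  have hMP : P ≤ MM := Real.le_sqrt_of_sq_le (by nlinarith [sq_nonneg Q])
  have hGS : G ≤ S ^ 2 := by
    have e1 : S ^ 2 = Q * MM := Real.sq_sqrt (mul_nonneg hQ0 hMM0)
    rw [e1]
    exact mul_le_mul hQD hMP hP0 hQ0
  have hfin := aux_final hg0 ht hgt hS0 hGS
  have hbq : bq D U V = 2 * Real.sqrt G * S := by
    have e0 : bq D U V = 2 * Real.sqrt (G * (Q * MM)) := by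
      unfold bq
      congr 2
      simp only [hGdef, hP, hQ, hMM]
      ring
    rw [e0, Real.sqrt_mul (mul_nonneg hD hP0)]
    ring
  rw [hbq]
  linarith

/-- One node of the recursion, with explicit square root formulas. -/
theorem step_real {ι : Type*} (I : Finset ι) (u v d : ι → ℝ)
    (hu : ∀ m, 0 ≤ u m) (hv : ∀ m, 0 ≤ v m) (hd : ∀ m, 0 ≤ d m)
    (F1 F2 x0 : ℝ) (hF1 : 0 ≤ F1) (hF2 : 0 ≤ F2) :
    let A := Real.sqrt (∑ m ∈ I, u m ^ 2)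
    let A' := Real.sqrt (∑ m ∈ I, v m ^ 2)
    let Ah := Real.sqrt (∑ m ∈ I, (u m + d m) ^ 2 + F1)
    let Ah' := Real.sqrt (∑ m ∈ I, (v m + d m) ^ 2 + F2)
    let Uo := max A (A' + x0)
    let Un := max Ah (Ah' + x0)
    0 ≤ Un - Uo ∧
    ∑ m ∈ I, bq (d m) (u m) (v m) + (if Uo = A then F1 else F2) ≤ bq (Un - Uo) Uo (Uo - x0) := by
  intro A A' Ah Ah' Uo Un
  have hA0 : 0 ≤ A := Real.sqrt_nonneg _
  have hA'0 : 0 ≤ A' := Real.sqrt_nonneg _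
  have hAh0 : 0 ≤ Ah := Real.sqrt_nonneg _
  have hAh'0 : 0 ≤ Ah' := Real.sqrt_nonneg _
  have hsu : 0 ≤ ∑ m ∈ I, u m ^ 2 := Finset.sum_nonneg fun _ _ => by positivity
  have hsv : 0 ≤ ∑ m ∈ I, v m ^ 2 := Finset.sum_nonneg fun _ _ => by positivity
  have hsud : 0 ≤ ∑ m ∈ I, (u m + d m) ^ 2 := Finset.sum_nonneg fun _ _ => by positivity
  have hsvd : 0 ≤ ∑ m ∈ I, (v m + d m) ^ 2 := Finset.sum_nonneg fun _ _ => by positivity
  have hA2 : A ^ 2 = ∑ m ∈ I, u m ^ 2 := Real.sq_sqrt hsu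
  have hA'2 : A' ^ 2 = ∑ m ∈ I, v m ^ 2 := Real.sq_sqrt hsv
  have hAh2 : Ah ^ 2 = ∑ m ∈ I, (u m + d m) ^ 2 + F1 := Real.sq_sqrt (by linarith)
  have hAh'2 : Ah' ^ 2 = ∑ m ∈ I, (v m + d m) ^ 2 + F2 := Real.sq_sqrt (by linarith)
  have hmu : ∑ m ∈ I, u m ^ 2 ≤ ∑ m ∈ I, (u m + d m) ^ 2 :=
    Finset.sum_le_sum fun m _ => by nlinarith [hu m, hd m]
  have hmv : ∑ m ∈ I, v m ^ 2 ≤ ∑ m ∈ I, (v m + d m) ^ 2 :=
    Finset.sum_le_sum fun m _ => by nlinarith [hv m, hd m]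
  have hAAh : A ≤ Ah := Real.sqrt_le_sqrt (by linarith)
  have hA'Ah' : A' ≤ Ah' := Real.sqrt_le_sqrt (by linarith)
  have hUoUn : Uo ≤ Un := max_le_max hAAh (by linarith)
  refine ⟨by linarith, ?_⟩
  set D := Un - Uo with hD
  have hD0 : 0 ≤ D := by simp only [hD]; linarith
  have hUoA : A ≤ Uo := le_max_left _ _
  have hUoA' : A' + x0 ≤ Uo := le_max_right _ _
  have hUnAh : Ah ≤ Un := le_max_left _ _
  have hUnAh' : Ah' + x0 ≤ Un := le_max_right _ _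
  have hU0 : 0 ≤ Uo := by linarith
  have hV0 : 0 ≤ Uo - x0 := by linarith
  have hUD : Uo + D = Un := by simp only [hD]; ring
  have hAsq : A ^ 2 ≤ Uo ^ 2 := pow_le_pow_left₀ hA0 hUoA 2
  have hAhsq : Ah ^ 2 ≤ (Uo + D) ^ 2 := pow_le_pow_left₀ hAh0 (by rw [hUD]; exact hUnAh) 2
  have hA'sq : A' ^ 2 ≤ (Uo - x0) ^ 2 := pow_le_pow_left₀ hA'0 (by linarith) 2
  have hAh'sq : Ah' ^ 2 ≤ (Uo - x0 + D) ^ 2 :=
    pow_le_pow_left₀ hAh'0 (by linarith) 2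
  have e1 : ∑ m ∈ I, (u m + d m) ^ 2 = ∑ m ∈ I, u m ^ 2 + ∑ m ∈ I, d m * (2 * u m + d m) := by
    rw [← Finset.sum_add_distrib]
    exact Finset.sum_congr rfl fun m _ => by ring
  have e2 : ∑ m ∈ I, (v m + d m) ^ 2 = ∑ m ∈ I, v m ^ 2 + ∑ m ∈ I, d m * (2 * v m + d m) := by
    rw [← Finset.sum_add_distrib]
    exact Finset.sum_congr rfl fun m _ => by ring
  by_cases hc : Uo = A
  · rw [if_pos hc]
    refine bq_core I u v d hu hv hd hU0 hV0 hD0 hF1 ?_ ?_ ?_ ?_ ?_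
    · linarith
    · linarith
    · linarith
    · linarith
    · have : Uo ^ 2 = ∑ m ∈ I, u m ^ 2 := by rw [hc]; exact hA2
      nlinarith
  · rw [if_neg hc]
    have hc' : Uo = A' + x0 := by
      rcases max_choice A (A' + x0) with h | h
      · exact absurd h hc
      · exact h
    have hV : Uo - x0 = A' := by linarith
    have := bq_core I v u d hv hu hd hV0 hU0 hD0 hF2
      (U := Uo - x0) (V := Uo) (D := D) (t := F2) (by linarith) (by linarith) (by linarith)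
      (by linarith) (by
        have : (Uo - x0) ^ 2 = ∑ m ∈ I, v m ^ 2 := by rw [hV]; exact hA'2
        nlinarith)
    have hcomm : ∀ m, bq (d m) (v m) (u m) = bq (d m) (u m) (v m) := fun m => bq_comm _ _ _
    simp only [hcomm] at this
    rw [bq_comm D Uo (Uo - x0)]
    exact this

end

end Vale.Agent.Lib.P069t
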