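import Mathlib

/-! Reflexivity of `ℝ`, of products, of `ℓ²` sums, and its transfer along isomorphisms. -/

namespace Vale.Agent.Lib.P069t

open scoped ENNReal Topology
open Filter

noncomputable section

/-- Reflexivity in coordinates. -/
def Refl (E : Type*) [NormedAddCommGroup E] [NormedSpace ℝ E] : Prop :=
  ∀ Φ : StrongDual ℝ (StrongDual ℝ E), ∃ x : E, ∀ f : StrongDual ℝ E, Φ f = f x

lemma refl_iff (E : Type*) [NormedAddCommGroup E] [NormedSpace ℝ E] :
    Refl E ↔ Function.Surjective (NormedSpace.inclusionInDoubleDual ℝ E) := by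
  constructor
  · intro h Φ
    obtain ⟨x, hx⟩ := h Φ
    refine ⟨x, ?_⟩
    ext f
    rw [NormedSpace.dual_def, hx]
  · intro h Φ
    obtain ⟨x, hx⟩ := h Φ
    refine ⟨x, fun f => ?_⟩
    rw [← hx, NormedSpace.dual_def]

lemma refl_real : Refl ℝ := by
  intro Φ
  refine ⟨Φ (ContinuousLinearMap.id ℝ ℝ), fun f => ?_⟩
  have h : f = f 1 • ContinuousLinearMap.id ℝ ℝ := by
    ext
    simp
  conv_lhs => rw [h]
  rw [map_smul]
  have h2 : f (Φ (ContinuousLinearMap.id ℝ ℝ)) = Φ (ContinuousLinearMap.id ℝ ℝ) * f 1 := by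
    have := f.map_smul (Φ (ContinuousLinearMap.id ℝ ℝ)) (1 : ℝ)
    simpa using this
  rw [h2]
  simp [mul_comm]

lemma refl_of_equiv {E F : Type*} [NormedAddCommGroup E] [NormedSpace ℝ E]
    [NormedAddCommGroup F] [NormedSpace ℝ F] (e : E ≃L[ℝ] F) (hF : Refl F) : Refl E := by
  intro Φ
  let Ψ : StrongDual ℝ (StrongDual ℝ F) :=
    Φ.comp ((ContinuousLinearMap.compL ℝ E F ℝ).flip (e : E →L[ℝ] F))
  obtain ⟨y, hy⟩ := hF Ψ
  refine ⟨e.symm y, fun f => ?_⟩
  have h := hy (f.comp (e.symm : F →L[ℝ] E))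
  have h1 : ((ContinuousLinearMap.compL ℝ E F ℝ).flip (e : E →L[ℝ] F))
      (f.comp (e.symm : F →L[ℝ] E)) = f := by
    ext x
    simp
  have h2 : Ψ (f.comp (e.symm : F →L[ℝ] E)) = Φ f := by
    change Φ (((ContinuousLinearMap.compL ℝ E F ℝ).flip (e : E →L[ℝ] F))
      (f.comp (e.symm : F →L[ℝ] E))) = Φ f
    rw [h1]
  rw [← h2, h]
  rfl

lemma refl_prod {A B : Type*} [NormedAddCommGroup A] [NormedSpace ℝ A]
    [NormedAddCommGroup B] [NormedSpace ℝ B] (hA : Refl A) (hB : Refl B) : Refl (A × B) := by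
  intro Φ
  let ΦA : StrongDual ℝ (StrongDual ℝ A) :=
    Φ.comp ((ContinuousLinearMap.compL ℝ (A × B) A ℝ).flip (ContinuousLinearMap.fst ℝ A B))
  let ΦB : StrongDual ℝ (StrongDual ℝ B) :=
    Φ.comp ((ContinuousLinearMap.compL ℝ (A × B) B ℝ).flip (ContinuousLinearMap.snd ℝ A B))
  obtain ⟨a, ha⟩ := hA ΦA
  obtain ⟨b, hb⟩ := hB ΦB
  refine ⟨(a, b), fun f => ?_⟩
  let fA : StrongDual ℝ A := f.comp (ContinuousLinearMap.inl ℝ A B)
  let fB : StrongDual ℝ B := f.comp (ContinuousLinearMap.inr ℝ A B)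
  have hsplit : f = fA.comp (ContinuousLinearMap.fst ℝ A B) +
      fB.comp (ContinuousLinearMap.snd ℝ A B) := by
    apply ContinuousLinearMap.ext
    rintro ⟨a', b'⟩
    have e : ((a', b') : A × B) = (ContinuousLinearMap.inl ℝ A B) a' +
        (ContinuousLinearMap.inr ℝ A B) b' := by simp
    conv_lhs => rw [e, map_add]
    rfl
  have h1 : ΦA fA = Φ (fA.comp (ContinuousLinearMap.fst ℝ A B)) := rfl
  have h2 : ΦB fB = Φ (fB.comp (ContinuousLinearMap.snd ℝ A B)) := rfl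
  calc Φ f = Φ (fA.comp (ContinuousLinearMap.fst ℝ A B) +
        fB.comp (ContinuousLinearMap.snd ℝ A B)) := by rw [← hsplit]
    _ = ΦA fA + ΦB fB := by rw [map_add, h1, h2]
    _ = fA a + fB b := by rw [ha, hb]
    _ = f (a, b) := by
        have : (a, b) = (ContinuousLinearMap.inl ℝ A B) a + (ContinuousLinearMap.inr ℝ A B) b := by
          simp
        rw [this, map_add]
        rfl

section LP

variable {E : ℕ → Type} [∀ m, NormedAddCommGroup (E m)] [∀ m, NormedSpace ℝ (E m)]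

/-- The `ℓ²` sum. -/
abbrev LL (E : ℕ → Type) [∀ m, NormedAddCommGroup (E m)] : Type := lp E 2

lemma lp_sum_sq_le (z : (LL E)) (s : Finset ℕ) : ∑ m ∈ s, ‖z m‖ ^ 2 ≤ ‖z‖ ^ 2 := by
  have := lp.sum_rpow_le_norm_rpow (p := 2) (by norm_num) z s
  simpa using this

/-- Evaluation at a coordinate. -/
abbrev pr (m : ℕ) : (LL E) →L[ℝ] E m := lp.evalCLM ℝ E 2 m

/-- Inclusion of a coordinate. -/
abbrev inc (m : ℕ) : E m →L[ℝ] (LL E) := lp.singleContinuousLinearMap ℝ E 2 m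

/-- A bounded sequence of functionals with norm square sum controls a coefficient bound. -/
lemma abs_sum_le (s : Finset ℕ) (c : ℕ → ℝ) (z : (LL E)) :
    ∑ m ∈ s, |c m| * ‖z m‖ ≤ Real.sqrt (∑ m ∈ s, c m ^ 2) * ‖z‖ := by
  have h := Real.sum_mul_le_sqrt_mul_sqrt s (fun m => |c m|) (fun m => ‖z m‖)
  have h1 : ∑ m ∈ s, |c m| ^ 2 = ∑ m ∈ s, c m ^ 2 :=
    Finset.sum_congr rfl fun m _ => sq_abs _
  rw [h1] at h
  refine h.trans ?_
  have h2 : Real.sqrt (∑ m ∈ s, ‖z m‖ ^ 2) ≤ ‖z‖ :=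
    Real.sqrt_le_iff.2 ⟨norm_nonneg _, lp_sum_sq_le z s⟩
  exact mul_le_mul_of_nonneg_left h2 (Real.sqrt_nonneg _)

lemma summable_split_aux {f : ℕ → ℝ} (hf : Summable f) (I : Finset ℕ) :
    Summable fun m => if m ∈ I then 0 else f m := by
  have h1 : Summable fun m => if m ∈ I then f m else 0 :=
    summable_of_ne_finset_zero (s := I) fun m hm => by simp [hm]
  refine (hf.sub h1).congr fun m => ?_
  by_cases h : m ∈ I <;> simp [h]

lemma tsum_split_aux {f : ℕ → ℝ} (hf : Summable f) (I : Finset ℕ) :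
    ∑' m, f m = ∑ m ∈ I, f m + ∑' m, (if m ∈ I then 0 else f m) := by
  have h1 : Summable fun m => if m ∈ I then f m else 0 :=
    summable_of_ne_finset_zero (s := I) fun m hm => by simp [hm]
  have h2 := summable_split_aux hf I
  have h3 : ∑' m, (if m ∈ I then f m else 0) = ∑ m ∈ I, f m := by
    rw [tsum_eq_sum (s := I) fun m hm => by simp [hm]]
    exact Finset.sum_congr rfl fun m hm => by simp [hm]
  rw [← h3, ← h1.tsum_add h2]
  refine tsum_congr fun m => ?_
  by_cases h : m ∈ I <;> simp [h]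

/-- The elementary self improving estimate. -/
lemma le_sq_of_le_mul_sqrt {A C : ℝ} (hA : 0 ≤ A) (hC : 0 ≤ C) (h : A ≤ C * Real.sqrt A) :
    A ≤ C ^ 2 := by
  rcases eq_or_lt_of_le hA with h0 | h0
  · rw [← h0]; positivity
  · have hs : 0 < Real.sqrt A := Real.sqrt_pos.2 h0
    have h2 : Real.sqrt A ^ 2 = A := Real.sq_sqrt hA
    have h3 : Real.sqrt A ≤ C := by
      by_contra hcon
      push Not at hcon
      nlinarith
    calc A = Real.sqrt A ^ 2 := h2.symm
      _ ≤ C ^ 2 := pow_le_pow_left₀ hs.le h3 2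

/-- An almost norming vector for a real functional. -/
lemma exists_almost_norming {F : Type*} [NormedAddCommGroup F] [NormedSpace ℝ F]
    (g : StrongDual ℝ F) : ∃ w : F, ‖w‖ ≤ 1 ∧ ‖g‖ / 2 ≤ g w := by
  rcases eq_or_ne g 0 with rfl | hg
  · exact ⟨0, by simp, by simp⟩
  · have hpos : 0 < ‖g‖ := norm_pos_iff.2 hg
    have hlt : ‖g‖ / 2 < ‖g‖ := by linarith
    obtain ⟨w, hw1, hw2⟩ := ContinuousLinearMap.exists_lt_apply_of_lt_opNorm g
      (r := ‖g‖ / 2) hlt
    rw [Real.norm_eq_abs] at hw2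
    rcases le_total 0 (g w) with h | h
    · rw [abs_of_nonneg h] at hw2
      exact ⟨w, hw1.le, hw2.le⟩
    · rw [abs_of_nonpos h] at hw2
      refine ⟨-w, by simpa using hw1.le, ?_⟩
      rw [map_neg]
      exact hw2.le

/-- Functionals on the `ℓ²` sum have square summable coordinates. -/
lemma sum_norm_comp_sq_le (h : StrongDual ℝ (LL E)) (s : Finset ℕ) :
    ∑ m ∈ s, ‖h.comp (inc m)‖ ^ 2 ≤ (2 * ‖h‖) ^ 2 := by
  set a : ℕ → ℝ := fun m => ‖h.comp (inc (E := E) m)‖ with ha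
  choose w hw1 hw2 using fun m => exists_almost_norming (h.comp (inc (E := E) m))
  set A : ℝ := ∑ m ∈ s, a m ^ 2 with hA
  have hA0 : 0 ≤ A := Finset.sum_nonneg fun _ _ => by positivity
  set z : (LL E) := ∑ m ∈ s, lp.single 2 m (a m • w m) with hz
  have hnz : ‖z‖ ^ 2 ≤ A := by
    have e := lp.norm_sum_single (p := 2) (E := E) (by norm_num) (fun m => a m • w m) s
    have e' : ‖z‖ ^ 2 = ∑ m ∈ s, ‖a m • w m‖ ^ 2 := by
      simp only [ENNReal.toReal_ofNat, Real.rpow_two] at e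
      exact e
    rw [e']
    refine Finset.sum_le_sum fun m _ => ?_
    rw [norm_smul, Real.norm_eq_abs, mul_pow, sq_abs]
    have h1 : ‖w m‖ ^ 2 ≤ 1 := pow_le_one₀ (norm_nonneg _) (hw1 m)
    have h2 : 0 ≤ a m ^ 2 := by positivity
    nlinarith
  have hnz' : ‖z‖ ≤ Real.sqrt A := Real.le_sqrt_of_sq_le hnz
  have hhz : A / 2 ≤ h z := by
    have e : h z = ∑ m ∈ s, a m * (h.comp (inc (E := E) m)) (w m) := by
      rw [hz, map_sum]
      refine Finset.sum_congr rfl fun m _ => ?_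
      have : lp.single (E := E) 2 m (a m • w m) = a m • inc (E := E) m (w m) := by
        simp [lp.single_smul]
      rw [this, map_smul, smul_eq_mul]
      rfl
    rw [e, hA, Finset.sum_div]
    refine Finset.sum_le_sum fun m _ => ?_
    have h1 := hw2 m
    have h2 : 0 ≤ a m := norm_nonneg _
    have : a m * (a m / 2) ≤ a m * (h.comp (inc (E := E) m)) (w m) :=
      mul_le_mul_of_nonneg_left h1 h2
    nlinarith
  have hle : A ≤ (2 * ‖h‖) * Real.sqrt A := by
    have h1 : h z ≤ ‖h‖ * ‖z‖ := (le_abs_self _).trans (h.le_opNorm z)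
    have h2 : ‖h‖ * ‖z‖ ≤ ‖h‖ * Real.sqrt A := mul_le_mul_of_nonneg_left hnz' (norm_nonneg _)
    linarith
  exact le_sq_of_le_mul_sqrt hA0 (by positivity) hle

lemma summable_norm_comp_sq (h : StrongDual ℝ (LL E)) :
    Summable fun m => ‖h.comp (inc (E := E) m)‖ ^ 2 :=
  summable_of_sum_le (fun _ => by positivity) (sum_norm_comp_sq_le h)

/-- The finite section of a functional. -/
def hsec (h : StrongDual ℝ (LL E)) (s : Finset ℕ) : StrongDual ℝ (LL E) :=
  ∑ m ∈ s, (h.comp (inc (E := E) m)).comp (pr (E := E) m)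

lemma hsec_apply (h : StrongDual ℝ (LL E)) (s : Finset ℕ) (z : (LL E)) :
    hsec h s z = h (∑ m ∈ s, lp.single 2 m (z m)) := by
  unfold hsec
  rw [_root_.sum_apply, map_sum]
  rfl

lemma norm_sub_hsec_le (h : StrongDual ℝ (LL E)) (s : Finset ℕ) :
    ‖h - hsec h s‖ ≤ Real.sqrt (∑' m, (if m ∈ s then 0 else ‖h.comp (inc (E := E) m)‖ ^ 2)) := by
  refine ContinuousLinearMap.opNorm_le_bound _ (Real.sqrt_nonneg _) fun z => ?_
  set τ := Real.sqrt (∑' m, (if m ∈ s then 0 else ‖h.comp (inc (E := E) m)‖ ^ 2)) with hτ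
  set z' : (LL E) := z - ∑ m ∈ s, lp.single 2 m (z m) with hz'
  have e0 : (h - hsec h s) z = h z' := by
    rw [_root_.sub_apply, hsec_apply, hz', map_sub]
  rw [e0, Real.norm_eq_abs]
  have hz'0 : ∀ m ∈ s, z' m = 0 := by
    intro m hm
    have : (∑ k ∈ s, lp.single (E := E) 2 k (z k) : (LL E)) m = z m := by
      rw [lp.coeFn_sum]
      simp only [Finset.sum_apply, lp.coeFn_single, Finset.sum_pi_single]
      simp [hm]
    rw [hz']
    change z m - (∑ k ∈ s, lp.single (E := E) 2 k (z k) : (LL E)) m = 0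
    rw [this, sub_self]
  have hnz' : ‖z'‖ ≤ ‖z‖ := by
    have e := lp.norm_compl_sum_single (p := 2) (by norm_num) z s
    have e' : ‖z'‖ ^ 2 = ‖z‖ ^ 2 - ∑ m ∈ s, ‖z m‖ ^ 2 := by simpa using e
    have e2 : 0 ≤ ∑ m ∈ s, ‖z m‖ ^ 2 := Finset.sum_nonneg fun _ _ => by positivity
    exact abs_le_of_sq_le_sq' (by linarith) (norm_nonneg _) |>.2
  have hs := lp.hasSum_single (p := 2) (by norm_num) z'
  have hs2 : HasSum (fun m => h (lp.single 2 m (z' m))) (h z') := hs.map h h.continuous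
  have hbd : ∀ t : Finset ℕ, |∑ m ∈ t, h (lp.single 2 m (z' m))| ≤ τ * ‖z‖ := by
    intro t
    have hsumm := summable_norm_comp_sq (E := E) h
    set b : ℕ → ℝ := fun m => if m ∈ s then 0 else ‖h.comp (inc (E := E) m)‖ with hb
    have hterm : ∀ m, |h (lp.single 2 m (z' m))| ≤ |b m| * ‖z' m‖ := by
      intro m
      by_cases hm : m ∈ s
      · rw [hz'0 m hm]
        simp
      · have e1 : |b m| = ‖h.comp (inc (E := E) m)‖ := by
          simp only [hb, if_neg hm, abs_norm]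
        rw [e1]
        have := (h.comp (inc (E := E) m)).le_opNorm (z' m)
        rw [Real.norm_eq_abs] at this
        exact this
    have h1 : |∑ m ∈ t, h (lp.single 2 m (z' m))| ≤ ∑ m ∈ t, |b m| * ‖z' m‖ :=
      (Finset.abs_sum_le_sum_abs _ _).trans (Finset.sum_le_sum fun m _ => hterm m)
    have h2 := abs_sum_le t b z'
    have h3 : Real.sqrt (∑ m ∈ t, b m ^ 2) ≤ τ := by
      apply Real.sqrt_le_sqrt
      have e3 : ∀ m, b m ^ 2 = if m ∈ s then 0 else ‖h.comp (inc (E := E) m)‖ ^ 2 := by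
        intro m
        by_cases hm : m ∈ s <;> simp [hb, hm]
      simp only [e3]
      exact (summable_split_aux hsumm s).sum_le_tsum t fun m _ => by
        by_cases hm : m ∈ s <;> simp [hm]
    calc _ ≤ _ := h1
      _ ≤ _ := h2
      _ ≤ τ * ‖z‖ := mul_le_mul h3 hnz' (norm_nonneg _) (Real.sqrt_nonneg _)
  have hlim : Tendsto (fun t : Finset ℕ => |∑ m ∈ t, h (lp.single 2 m (z' m))|) atTop
      (𝓝 |h z'|) := hs2.abs
  exact le_of_tendsto hlim (Eventually.of_forall hbd)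

lemma tendsto_hsec (h : StrongDual ℝ (LL E)) :
    Tendsto (fun s : Finset ℕ => hsec h s) atTop (𝓝 h) := by
  rw [tendsto_iff_norm_sub_tendsto_zero]
  have hsumm := summable_norm_comp_sq (E := E) h
  set T := ∑' m, ‖h.comp (inc (E := E) m)‖ ^ 2 with hT
  have hb : ∀ s : Finset ℕ, ‖hsec h s - h‖ ≤ Real.sqrt (T - ∑ m ∈ s, ‖h.comp (inc (E := E) m)‖ ^ 2) := by
    intro s
    rw [norm_sub_rev]
    refine (norm_sub_hsec_le h s).trans_eq ?_
    congr 1
    have hsp := tsum_split_aux hsumm s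
    rw [hT, hsp]
    ring
  have hlim : Tendsto (fun s : Finset ℕ =>
      Real.sqrt (T - ∑ m ∈ s, ‖h.comp (inc (E := E) m)‖ ^ 2)) atTop (𝓝 0) := by
    have h1 : Tendsto (fun s : Finset ℕ => ∑ m ∈ s, ‖h.comp (inc (E := E) m)‖ ^ 2) atTop (𝓝 T) :=
      hsumm.hasSum
    have h2 : Tendsto (fun s : Finset ℕ => T - ∑ m ∈ s, ‖h.comp (inc (E := E) m)‖ ^ 2) atTop
        (𝓝 (T - T)) := tendsto_const_nhds.sub h1
    rw [sub_self] at h2
    have h3 := h2.sqrt
    simpa using h3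
  exact squeeze_zero (fun _ => norm_nonneg _) hb hlim

/-- The `ℓ²` sum of reflexive spaces is reflexive. -/
theorem refl_lp (hE : ∀ m, Refl (E m)) : Refl (LL E) := by
  intro Φ
  -- coordinates of the candidate
  have hx : ∀ m, ∃ x : E m, ∀ f : StrongDual ℝ (E m), Φ (f.comp (pr m)) = f x := by
    intro m
    let Ψ : StrongDual ℝ (StrongDual ℝ (E m)) :=
      Φ.comp ((ContinuousLinearMap.compL ℝ (LL E) (E m) ℝ).flip (pr m))
    obtain ⟨x, hx⟩ := hE m Ψ
    exact ⟨x, fun f => hx f⟩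
  choose x hx using hx
  -- square summability
  have hbound : ∀ s : Finset ℕ, ∑ m ∈ s, ‖x m‖ ^ 2 ≤ ‖Φ‖ ^ 2 := by
    intro s
    choose f hf1 hf2 using fun m => exists_dual_vector'' ℝ (x m)
    set A : ℝ := ∑ m ∈ s, ‖x m‖ ^ 2 with hA
    have hA0 : 0 ≤ A := Finset.sum_nonneg fun _ _ => by positivity
    set g : StrongDual ℝ (LL E) := ∑ m ∈ s, ‖x m‖ • (f m).comp (pr m) with hg
    have hΦg : Φ g = A := by
      rw [hg, map_sum, hA]
      refine Finset.sum_congr rfl fun m _ => ?_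
      rw [map_smul, hx, hf2, smul_eq_mul]
      exact (pow_two _).symm
    have hng : ‖g‖ ≤ Real.sqrt A := by
      refine ContinuousLinearMap.opNorm_le_bound _ (Real.sqrt_nonneg _) fun z => ?_
      have e : g z = ∑ m ∈ s, ‖x m‖ * (f m) (z m) := by
        rw [hg, _root_.sum_apply]
        rfl
      rw [e, Real.norm_eq_abs]
      have h1 : |∑ m ∈ s, ‖x m‖ * (f m) (z m)| ≤ ∑ m ∈ s, |‖x m‖| * ‖z m‖ := by
        refine (Finset.abs_sum_le_sum_abs _ _).trans (Finset.sum_le_sum fun m _ => ?_)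
        rw [abs_mul]
        refine mul_le_mul_of_nonneg_left ?_ (abs_nonneg _)
        have := (f m).le_opNorm (z m)
        rw [Real.norm_eq_abs] at this
        have h3 : ‖f m‖ * ‖z m‖ ≤ 1 * ‖z m‖ :=
          mul_le_mul_of_nonneg_right (hf1 m) (norm_nonneg _)
        linarith
      have h2 := abs_sum_le s (fun m => ‖x m‖) z
      exact h1.trans h2
    have hle : A ≤ ‖Φ‖ * Real.sqrt A := by
      have h1 : Φ g ≤ ‖Φ‖ * ‖g‖ := (le_abs_self _).trans (Φ.le_opNorm g)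
      have h2 : ‖Φ‖ * ‖g‖ ≤ ‖Φ‖ * Real.sqrt A := mul_le_mul_of_nonneg_left hng (ContinuousLinearMap.opNorm_nonneg Φ)
      rw [hΦg] at h1
      linarith
    exact le_sq_of_le_mul_sqrt hA0 (ContinuousLinearMap.opNorm_nonneg Φ) hle
  have hmem : Memℓp x 2 := by
    refine memℓp_gen' (C := ‖Φ‖ ^ 2) fun s => ?_
    simpa using hbound s
  let X : (LL E) := ⟨x, hmem⟩
  refine ⟨X, fun h => ?_⟩
  -- limit argument
  have h1 : Tendsto (fun s : Finset ℕ => Φ (hsec h s)) atTop (𝓝 (Φ h)) :=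
    (Φ.continuous.tendsto h).comp (tendsto_hsec h)
  have h2 : (fun s : Finset ℕ => Φ (hsec h s)) =
      fun s : Finset ℕ => ∑ m ∈ s, h (lp.single 2 m (X m)) := by
    funext s
    unfold hsec
    rw [map_sum]
    refine Finset.sum_congr rfl fun m _ => ?_
    rw [hx]
    rfl
  rw [h2] at h1
  have h3 := ((lp.hasSum_single (p := 2) (by norm_num) X).map h h.continuous)
  exact tendsto_nhds_unique h1 h3

end LP

end

end Vale.Agent.Lib.P069t
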