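import Vale.Agent.Lib.P069t.Node
import Vale.Agent.Lib.P069t.Reflexive

/-! The step construction: completeness, reflexivity, maps, density, and the key estimate. -/

namespace Vale.Agent.Lib.P069t

open scoped ENNReal Topology
open Filter

noncomputable section

variable {Y : ℕ → Node}

/-- The identity as a linear equivalence with the product. -/
def stepLin (Y : ℕ → Node) : StepC Y ≃ₗ[ℝ] (ℝ × Ch Y) where
  toFun x := x
  invFun x := x
  map_add' _ _ := rfl
  map_smul' _ _ := rfl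
  left_inv _ := rfl
  right_inv _ := rfl

/-- The identity as a continuous linear equivalence with the product. -/
def stepEquiv (Y : ℕ → Node) : StepC Y ≃L[ℝ] (ℝ × Ch Y) :=
  (stepLin Y).toContinuousLinearEquivOfBounds 1 3
    (fun x => by
      rw [Prod.norm_def, one_mul, norm_def]
      exact max_le (by rw [Real.norm_eq_abs]; exact stepN_fst x) (stepN_snd x))
    (fun x => by
      rw [Prod.norm_def, norm_def]
      have h := stepN_le ((stepLin Y).symm x)
      have h1 : |x.1| ≤ max ‖x.1‖ ‖x.2‖ := by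
        rw [← Real.norm_eq_abs]; exact le_max_left _ _
      have h2 : ‖x.2‖ ≤ max ‖x.1‖ ‖x.2‖ := le_max_right _ _
      have h3 : |((stepLin Y).symm x).1| = |x.1| := rfl
      have h4 : ‖((stepLin Y).symm x).2‖ = ‖x.2‖ := rfl
      rw [h3, h4] at h
      linarith)

instance : CompleteSpace (StepC Y) :=
  (completeSpace_congr (e := (stepEquiv Y).toEquiv) (stepEquiv Y).isUniformEmbedding).2
    inferInstance

theorem step_refl (hY : ∀ m, Refl (Y m).carrier) : Refl (StepC Y) :=
  refl_of_equiv (stepEquiv Y) (refl_prod refl_real (refl_lp (E := fun m => (Y m).carrier) hY))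

/-- The root coordinate as a functional. -/
def fstF (Y : ℕ → Node) : StrongDual ℝ (StepC Y) :=
  LinearMap.mkContinuous
    { toFun := fun x => x.1
      map_add' := fun _ _ => rfl
      map_smul' := fun _ _ => rfl } 1
    (fun x => by
      simp only [one_mul, Real.norm_eq_abs]
      exact stepN_fst x)

@[simp] lemma fstF_apply (x : StepC Y) : fstF Y x = x.1 := rfl

/-- A coordinate of a child as a continuous linear map. -/
def evalC (Y : ℕ → Node) (m : ℕ) : StepC Y →L[ℝ] (Y m).carrier :=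
  LinearMap.mkContinuous
    { toFun := fun x => x.2 m
      map_add' := fun _ _ => rfl
      map_smul' := fun _ _ => rfl } 1
    (fun x => by
      simp only [one_mul]
      exact (lp.norm_apply_le_norm (by norm_num) x.2 m).trans (stepN_snd x))

@[simp] lemma evalC_apply (m : ℕ) (x : StepC Y) : evalC Y m x = x.2 m := rfl

lemma R_single (m : ℕ) (w : (Y m).carrier) : R (lp.single 2 m w : Ch Y) = (Y m).U w := by
  unfold R
  rw [tsum_eq_single m]
  · rw [lp.single_apply_self, Real.sqrt_sq ((Y m).U_nonneg w)]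
  · intro k hk
    rw [lp.single_apply_ne _ _ _ hk, (Y k).U_zero]
    simp

lemma R_neg_single (m : ℕ) (w : (Y m).carrier) :
    R (-(lp.single 2 m w : Ch Y)) = (Y m).U (-w) := by
  rw [← lp.single_neg, R_single]

/-- The inclusion of a child. -/
def childMap (Y : ℕ → Node) (m : ℕ) : (Y m).carrier →ₗ[ℝ] StepC Y where
  toFun w := ((0 : ℝ), (lp.single 2 m w : Ch Y))
  map_add' a b := by
    apply Prod.ext
    · show (0 : ℝ) = 0 + 0
      simp
    · show (lp.single 2 m (a + b) : Ch Y) = lp.single 2 m a + lp.single 2 m b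
      rw [lp.single_add]
  map_smul' c a := by
    apply Prod.ext
    · show (0 : ℝ) = c * 0
      simp
    · show (lp.single 2 m (c • a) : Ch Y) = c • lp.single 2 m a
      rw [lp.single_smul]

lemma stepU_child (m : ℕ) (w : (Y m).carrier) :
    stepU (childMap Y m w) = max ((Y m).U w) ((Y m).U (-w)) := by
  unfold stepU
  show max (R (lp.single 2 m w : Ch Y)) (R (-(lp.single 2 m w : Ch Y)) + 0) = _
  rw [R_single, R_neg_single, add_zero]

lemma neg_child (m : ℕ) (w : (Y m).carrier) : -(childMap Y m w) = childMap Y m (-w) := by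
  rw [map_neg]

lemma norm_child_eq (m : ℕ) (w : (Y m).carrier) :
    ‖childMap Y m w‖ = 2 * max ((Y m).U w) ((Y m).U (-w)) := by
  rw [norm_def]
  unfold stepN
  rw [neg_child, stepU_child, stepU_child, neg_neg, max_comm ((Y m).U (-w))]
  ring

lemma norm_child_le (m : ℕ) (w : (Y m).carrier) : ‖childMap Y m w‖ ≤ 2 * ‖w‖ := by
  rw [norm_child_eq]
  have h1 := (Y m).U_le_norm w
  have h2 := (Y m).U_neg_le_norm w
  have : max ((Y m).U w) ((Y m).U (-w)) ≤ ‖w‖ := max_le h1 h2
  linarith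

lemma le_norm_child (m : ℕ) (w : (Y m).carrier) : ‖w‖ ≤ ‖childMap Y m w‖ := by
  rw [norm_child_eq, (Y m).norm_eq]
  have h1 := le_max_left ((Y m).U w) ((Y m).U (-w))
  have h2 := le_max_right ((Y m).U w) ((Y m).U (-w))
  linarith

/-- The inclusion of a child as a continuous linear map. -/
def childIn (Y : ℕ → Node) (m : ℕ) : (Y m).carrier →L[ℝ] StepC Y :=
  (childMap Y m).mkContinuous 2 (norm_child_le m)

@[simp] lemma childIn_apply (m : ℕ) (w : (Y m).carrier) : childIn Y m w = childMap Y m w := rfl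

/-! ### Density -/

/-- The finitely supported dense subset of the step space. -/
def stepD (Y : ℕ → Node) : Set (StepC Y) :=
  {x | (∀ m, x.2 m ∈ (Y m).Dn) ∧ {m | x.2 m ≠ 0}.Finite}

lemma stepD_zero : (0 : StepC Y) ∈ stepD Y :=
  ⟨fun m => (Y m).zero_mem, by simp [zero_snd]⟩

lemma stepD_dense (x : StepC Y) (ε : ℝ) (hε : 0 < ε) : ∃ z ∈ stepD Y, ‖x - z‖ < ε := by
  classical
  -- first a finite section of the child part
  have hs := lp.hasSum_single (p := 2) (by norm_num) x.2
  have hs' := Metric.tendsto_nhds.1 hs (ε / 8) (by positivity)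
  obtain ⟨J, hJ⟩ := (hs'.and (eventually_ge_atTop (∅ : Finset ℕ))).exists
  have hJ1 : ‖x.2 - ∑ m ∈ J, lp.single 2 m (x.2 m)‖ < ε / 8 := by
    rw [norm_sub_rev, ← dist_eq_norm]; exact hJ.1
  -- approximate each retained coordinate
  have hpos : 0 < ε / (8 * (J.card + 1)) := by positivity
  choose w hw hw2 using fun m => (Y m).dense (x.2 m) (ε / (8 * (J.card + 1))) hpos
  set c : Ch Y := ∑ m ∈ J, lp.single 2 m (w m) with hc
  have hcoord : ∀ m, c m = if m ∈ J then w m else 0 := by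
    intro m
    rw [hc, lp.coeFn_sum]
    simp only [Finset.sum_apply, lp.coeFn_single, Finset.sum_pi_single]
  let z : StepC Y := (x.1, c)
  have hzD : z ∈ stepD Y := by
    refine ⟨fun m => ?_, ?_⟩
    · show c m ∈ (Y m).Dn
      rw [hcoord]
      by_cases hm : m ∈ J
      · simp only [hm, if_true]; exact hw m
      · simp only [hm, if_false]; exact (Y m).zero_mem
    · refine J.finite_toSet.subset fun m hm => ?_
      by_contra hm2
      apply hm
      show c m = 0
      rw [hcoord, if_neg (by simpa using hm2)]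
  refine ⟨z, hzD, ?_⟩
  -- estimate
  have h2 : ‖x.2 - c‖ ≤ ε / 8 + ε / 8 := by
    have e : x.2 - c = (x.2 - ∑ m ∈ J, lp.single 2 m (x.2 m)) +
        ∑ m ∈ J, lp.single 2 m (x.2 m - w m) := by
      rw [hc]
      have e2 : ∑ m ∈ J, lp.single 2 m (x.2 m - w m) =
          ∑ m ∈ J, (lp.single 2 m (x.2 m) : Ch Y) - ∑ m ∈ J, lp.single 2 m (w m) := by
        rw [← Finset.sum_sub_distrib]
        exact Finset.sum_congr rfl fun m _ => lp.single_sub _ _ _ _
      rw [e2]
      abel
    rw [e]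
    refine (norm_add_le _ _).trans (add_le_add hJ1.le ?_)
    refine (norm_sum_le _ _).trans ?_
    have hb : ∀ m ∈ J, ‖(lp.single 2 m (x.2 m - w m) : Ch Y)‖ ≤ ε / (8 * (J.card + 1)) := by
      intro m _
      rw [lp.norm_single (by norm_num)]
      exact (hw2 m).le
    refine (Finset.sum_le_card_nsmul _ _ _ hb).trans ?_
    rw [nsmul_eq_mul]
    have hcard : (0 : ℝ) ≤ J.card := by positivity
    have : (J.card : ℝ) * (ε / (8 * (J.card + 1))) = ε / 8 * (J.card / (J.card + 1)) := by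
      field_simp
    rw [this]
    have h3 : (J.card : ℝ) / (J.card + 1) ≤ 1 := by
      rw [div_le_one (by positivity)]; linarith
    nlinarith
  rw [norm_def]
  refine lt_of_le_of_lt (stepN_le _) ?_
  have h4 : (x - z).1 = 0 := by
    show x.1 - x.1 = 0
    ring
  have h5 : (x - z).2 = x.2 - c := rfl
  rw [h4, h5, abs_zero]
  linarith

/-! ### The far subspace -/

/-- The functionals cutting out the far subspace of a finitely supported vector. -/
def stepF (Y : ℕ → Node) (x : StepC Y) : Set (StrongDual ℝ (StepC Y)) :=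
  {fstF Y} ∪ ⋃ m ∈ {m | x.2 m ≠ 0},
    (fun f : StrongDual ℝ (Y m).carrier => f.comp (evalC Y m)) '' ((Y m).Fn (x.2 m))

lemma stepF_fin {x : StepC Y} (hx : x ∈ stepD Y) : (stepF Y x).Finite := by
  refine (Set.finite_singleton _).union (hx.2.biUnion fun m _ => ?_)
  exact ((Y m).Fn_fin _ (hx.1 m)).image _

lemma far_fst {x y : StepC Y} (h : ∀ f ∈ stepF Y x, f y = 0) : y.1 = 0 :=
  h (fstF Y) (Or.inl rfl)

lemma far_child {x y : StepC Y} (h : ∀ f ∈ stepF Y x, f y = 0) (m : ℕ) (hm : x.2 m ≠ 0) :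
    ∀ f ∈ (Y m).Fn (x.2 m), f (y.2 m) = 0 := by
  intro f hf
  have : f.comp (evalC Y m) ∈ stepF Y x := by
    refine Or.inr ?_
    simp only [Set.mem_iUnion]
    exact ⟨m, hm, f, hf, rfl⟩
  exact h _ this

lemma Node.U_neg_add (Z : Node) (a b : Z.carrier) (hb : Z.lin b = 0) :
    Z.U (-(a + b)) = Z.U (a + b) - Z.U a + Z.U (-a) := by
  have h1 := Z.U_sub a
  have h2 := Z.U_sub (a + b)
  rw [map_add, hb, add_zero] at h2
  linarith

lemma stepU_add_far (x y : StepC Y) (hy : y.1 = 0) :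
    stepU (x + y) = max (R (x.2 + y.2)) (R (-(x.2 + y.2)) + x.1) := by
  unfold stepU
  rw [add_snd, add_fst, hy, add_zero]

/-- One sign of the key estimate at the step. -/
theorem step_sign (x y : StepC Y) (I : Finset ℕ) (hI : ∀ m, m ∈ I ↔ x.2 m ≠ 0) (hy : y.1 = 0)
    (hmono : ∀ m, x.2 m ≠ 0 → (Y m).U (x.2 m) ≤ (Y m).U (x.2 m + y.2 m))
    (hlin : ∀ m, x.2 m ≠ 0 → (Y m).lin (y.2 m) = 0) :
    ∑ m ∈ I, bq ((Y m).U (x.2 m + y.2 m) - (Y m).U (x.2 m)) ((Y m).U (x.2 m)) ((Y m).U (-(x.2 m))) +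
      (if stepU x = R x.2 then ∑' m, (if m ∈ I then 0 else ((Y m).U (y.2 m)) ^ 2)
        else ∑' m, (if m ∈ I then 0 else ((Y m).U ((-y.2) m)) ^ 2)) ≤
    bq (stepU (x + y) - stepU x) (stepU x) (stepU (-x)) := by
  set u : ℕ → ℝ := fun m => (Y m).U (x.2 m) with hu
  set v : ℕ → ℝ := fun m => (Y m).U (-(x.2 m)) with hv
  set d : ℕ → ℝ := fun m => (Y m).U (x.2 m + y.2 m) - (Y m).U (x.2 m) with hd
  set F1 : ℝ := ∑' m, (if m ∈ I then 0 else ((Y m).U (y.2 m)) ^ 2) with hF1
  set F2 : ℝ := ∑' m, (if m ∈ I then 0 else ((Y m).U ((-y.2) m)) ^ 2) with hF2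
  have hzero : ∀ m, m ∉ I → x.2 m = 0 := fun m hm => by
    by_contra h
    exact hm ((hI m).2 h)
  have hu0 : ∀ m, 0 ≤ u m := fun m => (Y m).U_nonneg _
  have hv0 : ∀ m, 0 ≤ v m := fun m => (Y m).U_nonneg _
  have hd0 : ∀ m, 0 ≤ d m := by
    intro m
    simp only [hd]
    by_cases hm : x.2 m = 0
    · rw [hm, zero_add, (Y m).U_zero, sub_zero]
      exact (Y m).U_nonneg _
    · linarith [hmono m hm]
  have hF10 : 0 ≤ F1 := tsum_nonneg fun m => by split_ifs <;> positivity
  have hF20 : 0 ≤ F2 := tsum_nonneg fun m => by split_ifs <;> positivity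
  have key := step_real I u v d hu0 hv0 hd0 F1 F2 x.1 hF10 hF20
  -- identify the square roots
  have eA : Real.sqrt (∑ m ∈ I, u m ^ 2) = R x.2 := by
    unfold R
    rw [tsum_eq_sum (s := I) fun m hm => by rw [hzero m hm, (Y m).U_zero]; simp]
  have eA' : Real.sqrt (∑ m ∈ I, v m ^ 2) = R (-x.2) := by
    unfold R
    rw [tsum_eq_sum (s := I) fun m hm => by
      have : ((-x.2 : Ch Y) m) = -(x.2 m) := rfl
      rw [this, hzero m hm, neg_zero, (Y m).U_zero]; simp]
    rfl
  have eAh : Real.sqrt (∑ m ∈ I, (u m + d m) ^ 2 + F1) = R (x.2 + y.2) := by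
    unfold R
    congr 1
    rw [tsum_split (summable_U_sq (x.2 + y.2)) I]
    congr 1
    · refine Finset.sum_congr rfl fun m _ => ?_
      simp only [hu, hd]
      have : (x.2 + y.2 : Ch Y) m = x.2 m + y.2 m := rfl
      rw [this]
      ring_nf
    · refine tsum_congr fun m => ?_
      by_cases hm : m ∈ I
      · simp [hm]
      · simp only [hm, if_false]
        have : (x.2 + y.2 : Ch Y) m = x.2 m + y.2 m := rfl
        rw [this, hzero m hm, zero_add]
  have eAh' : Real.sqrt (∑ m ∈ I, (v m + d m) ^ 2 + F2) = R (-(x.2 + y.2)) := by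
    unfold R
    congr 1
    rw [tsum_split (summable_U_sq (-(x.2 + y.2))) I]
    congr 1
    · refine Finset.sum_congr rfl fun m hm => ?_
      simp only [hv, hd]
      have : (-(x.2 + y.2) : Ch Y) m = -(x.2 m + y.2 m) := rfl
      rw [this, (Y m).U_neg_add _ _ (hlin m ((hI m).1 hm))]
      ring_nf
    · refine tsum_congr fun m => ?_
      by_cases hm : m ∈ I
      · simp [hm]
      · simp only [hm, if_false]
        have e1 : (-(x.2 + y.2) : Ch Y) m = -(x.2 m + y.2 m) := rfl
        have e2 : (-y.2 : Ch Y) m = -(y.2 m) := rfl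
        rw [e1, e2, hzero m hm, zero_add]
  simp only [eA, eA', eAh, eAh'] at key
  have hUo : max (R x.2) (R (-x.2) + x.1) = stepU x := rfl
  have hUn : max (R (x.2 + y.2)) (R (-(x.2 + y.2)) + x.1) = stepU (x + y) :=
    (stepU_add_far x y hy).symm
  rw [hUo, hUn] at key
  have hV : stepU x - x.1 = stepU (-x) := by linarith [stepU_sub x]
  rw [hV] at key
  exact key.2

lemma stepU_mono_far {x y : StepC Y} (hx : x ∈ stepD Y) (h : ∀ f ∈ stepF Y x, f y = 0) :
    stepU x ≤ stepU (x + y) := by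
  have hy := far_fst h
  rw [stepU_add_far x y hy]
  unfold stepU
  refine max_le_max (R_mono fun m => ?_) ?_
  · show (Y m).U (x.2 m) ≤ (Y m).U (x.2 m + y.2 m)
    by_cases hm : x.2 m = 0
    · rw [hm, zero_add, (Y m).U_zero]
      exact (Y m).U_nonneg _
    · have h1 : (∀ f ∈ (Y m).Fn (x.2 m), f (y.2 m) = 0) := far_child h m hm
      exact (Y m).far_mono _ (hx.1 m) hm _ h1
  · refine add_le_add (R_mono fun m => ?_) le_rfl
    show (Y m).U (-(x.2 m)) ≤ (Y m).U (-(x.2 m + y.2 m))
    by_cases hm : x.2 m = 0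
    · rw [hm, neg_zero, (Y m).U_zero]
      exact (Y m).U_nonneg _
    · have h1 : (∀ f ∈ (Y m).Fn (x.2 m), f (y.2 m) = 0) := far_child h m hm
      have h2 := (Y m).far_mono _ (hx.1 m) hm _ h1
      rw [(Y m).U_neg_add _ _ ((Y m).far_lin _ (hx.1 m) hm _ h1)]
      linarith

/-- The key estimate at the step. -/
theorem stepU_far_key {x y : StepC Y} (hx : x ∈ stepD Y) (h : ∀ f ∈ stepF Y x, f y = 0) :
    (stepU y) ^ 2 ≤ bq (stepU (x + y) - stepU x) (stepU x) (stepU (-x)) +
      bq (stepU (x + -y) - stepU x) (stepU x) (stepU (-x)) := by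
  classical
  set I : Finset ℕ := hx.2.toFinset with hIdef
  have hI : ∀ m, m ∈ I ↔ x.2 m ≠ 0 := fun m => by simp [hIdef]
  have hy := far_fst h
  have hy' : (-y).1 = 0 := by rw [neg_fst, hy, neg_zero]
  have hchild := fun (m : ℕ) (hm : x.2 m ≠ 0) => far_child h m hm
  have hchild' : ∀ (m : ℕ) (hm : x.2 m ≠ 0), ∀ f ∈ (Y m).Fn (x.2 m), f ((-y).2 m) = 0 := by
    intro m hm f hf
    have : (-y).2 m = -(y.2 m) := rfl
    rw [this, map_neg, hchild m hm f hf, neg_zero]
  have h1 := step_sign x y I hI hy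
    (fun m hm => (Y m).far_mono _ (hx.1 m) hm _ (hchild m hm))
    (fun m hm => (Y m).far_lin _ (hx.1 m) hm _ (hchild m hm))
  have h2 := step_sign x (-y) I hI hy'
    (fun m hm => (Y m).far_mono _ (hx.1 m) hm _ (hchild' m hm))
    (fun m hm => (Y m).far_lin _ (hx.1 m) hm _ (hchild' m hm))
  set F1 : ℝ := ∑' m, (if m ∈ I then 0 else ((Y m).U (y.2 m)) ^ 2) with hF1
  set F2 : ℝ := ∑' m, (if m ∈ I then 0 else ((Y m).U ((-y.2) m)) ^ 2) with hF2
  have eF1 : ∑' m, (if m ∈ I then 0 else ((Y m).U ((-y).2 m)) ^ 2) = F2 := rfl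
  have eF2 : ∑' m, (if m ∈ I then 0 else ((Y m).U ((-(-y).2) m)) ^ 2) = F1 := by
    have : (-(-y).2) = y.2 := neg_neg _
    rw [this]
  rw [eF1, eF2] at h2
  have hF10 : 0 ≤ F1 := tsum_nonneg fun m => by split_ifs <;> positivity
  have hF20 : 0 ≤ F2 := tsum_nonneg fun m => by split_ifs <;> positivity
  -- the children
  have hch : ∑ m ∈ I, ((Y m).U (y.2 m)) ^ 2 ≤
      ∑ m ∈ I, bq ((Y m).U (x.2 m + y.2 m) - (Y m).U (x.2 m)) ((Y m).U (x.2 m)) ((Y m).U (-(x.2 m))) +
      ∑ m ∈ I, bq ((Y m).U (x.2 m + (-y).2 m) - (Y m).U (x.2 m)) ((Y m).U (x.2 m))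
        ((Y m).U (-(x.2 m))) := by
    rw [← Finset.sum_add_distrib]
    refine Finset.sum_le_sum fun m hm => ?_
    have hm' := (hI m).1 hm
    exact (Y m).far_key _ (hx.1 m) hm' _ (hchild m hm')
  have hR1 : (R y.2) ^ 2 = ∑ m ∈ I, ((Y m).U (y.2 m)) ^ 2 + F1 := by
    rw [R_sq, tsum_split (summable_U_sq y.2) I]
  have hR2 : (R (-y.2)) ^ 2 = ∑ m ∈ I, ((Y m).U (y.2 m)) ^ 2 + F2 := by
    rw [R_sq, tsum_split (summable_U_sq (-y.2)) I]
    congr 1
    refine Finset.sum_congr rfl fun m hm => ?_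
    have hm' := (hI m).1 hm
    have hl := (Y m).far_lin _ (hx.1 m) hm' _ (hchild m hm')
    have := (Y m).U_sub (y.2 m)
    rw [hl] at this
    have e : (-y.2 : Ch Y) m = -(y.2 m) := rfl
    rw [e]
    have : (Y m).U (-(y.2 m)) = (Y m).U (y.2 m) := by linarith
    rw [this]
  have hsplit : (if stepU x = R x.2 then F1 else F2) + (if stepU x = R x.2 then F2 else F1) =
      F1 + F2 := by
    split_ifs <;> ring
  have hUy : stepU y = max (R y.2) (R (-y.2)) := by
    unfold stepU
    rw [hy, add_zero]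
  rw [hUy]
  have hR10 := R_nonneg y.2
  have hR20 := R_nonneg (-y.2)
  rcases max_choice (R y.2) (R (-y.2)) with hc | hc <;> rw [hc]
  · rw [hR1]; linarith
  · rw [hR2]; linarith

/-- The step construction as a node. -/
def step (Y : ℕ → Node) : Node where
  carrier := StepC Y
  U := stepU
  lin := fstF Y
  Dn := stepD Y
  Fn := stepF Y
  U_nonneg := stepU_nonneg
  U_add := stepU_add
  U_smul c x hc := stepU_smul c hc x
  norm_eq _ := rfl
  U_sub := stepU_sub
  zero_mem := stepD_zero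
  dense := stepD_dense
  Fn_fin _ hx := stepF_fin hx
  far_lin _ _ _ _ h := far_fst h
  far_mono _ hx _ _ h := stepU_mono_far hx h
  far_key _ hx _ _ h := stepU_far_key hx h
  refl := (refl_iff _).1 (step_refl fun m => (refl_iff _).2 (Y m).refl)

end

end Vale.Agent.Lib.P069t
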