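import Vale.Agent.Lib.P069t.Amuc

/-! Bounded weakly null trees: the family has no equivalent AUC norm. -/

namespace Vale.Agent.Lib.P069t

open scoped ENNReal Topology
open Filter

noncomputable section

/-! ### The trivial node -/

/-- The trivial normed structure on the point. -/
instance trivialSpace : NormedSpace ℝ PUnit where
  norm_smul_le _ _ := by simp

/-- The trivial node. -/
def trivialNode : Node where
  carrier := PUnit
  U _ := 0
  lin := 0
  Dn := Set.univ
  Fn _ := ∅
  U_nonneg _ := le_rfl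
  U_add _ _ := by simp
  U_smul _ _ _ := by simp
  norm_eq _ := by simp
  U_sub _ := by simp
  zero_mem := Set.mem_univ _
  dense x _ h := ⟨x, Set.mem_univ _, by simpa using h⟩
  Fn_fin _ _ := Set.finite_empty
  far_lin x _ hx _ _ := absurd (Subsingleton.elim x 0) hx
  far_mono x _ hx _ _ := absurd (Subsingleton.elim x 0) hx
  far_key x _ hx _ _ := absurd (Subsingleton.elim x 0) hx
  refl := by
    intro Φ
    refine ⟨PUnit.unit, ?_⟩
    ext f
    have hf : f = 0 := by
      ext x
      have : x = 0 := Subsingleton.elim x 0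
      rw [this, map_zero]; rfl
    rw [hf, map_zero, map_zero]

/-- The spaces of finite height. -/
def Hgt : ℕ → Node
  | 0 => trivialNode
  | n + 1 => step fun _ => Hgt n

/-- The final space: an `ℓ²` sum of the spaces of all finite heights, with a root coordinate. -/
def Top : Node := step Hgt

/-! ### Chains -/

/-- Bounded weakly null trees of height `k` rooted at `w`. -/
def Chain (Z : Node) : ℕ → Z.carrier → Prop
  | 0, w => Z.U w = 1 ∧ Z.U (-w) = 0
  | k + 1, w => Z.U w = 1 ∧ Z.U (-w) = 0 ∧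
      ∃ e : ℕ → Z.carrier, (∀ f : StrongDual ℝ Z.carrier, Tendsto (fun m => f (e m)) atTop (𝓝 0)) ∧
        (∀ m, 1 ≤ ‖e m‖) ∧ ∀ m, Chain Z k (w + e m)

lemma Chain.U_eq {Z : Node} {k : ℕ} {w : Z.carrier} (h : Chain Z k w) :
    Z.U w = 1 ∧ Z.U (-w) = 0 := by
  cases k with
  | zero => exact h
  | succ k => exact ⟨h.1, h.2.1⟩

lemma Chain.norm_eq {Z : Node} {k : ℕ} {w : Z.carrier} (h : Chain Z k w) : ‖w‖ = 1 := by
  rw [Z.norm_eq, h.U_eq.1, h.U_eq.2, add_zero]

variable {Y : ℕ → Node}

/-- The chain vector: root value one and a child. -/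
def chainVec (a : ℕ) (w : (Y a).carrier) : StepC Y := ((1 : ℝ), (lp.single 2 a w : Ch Y))

lemma chainVec_add (a : ℕ) (w e : (Y a).carrier) :
    chainVec a w + childMap Y a e = chainVec a (w + e) := by
  apply Prod.ext
  · show (1 : ℝ) + 0 = 1
    ring
  · show (lp.single 2 a w : Ch Y) + lp.single 2 a e = lp.single 2 a (w + e)
    rw [lp.single_add]

lemma stepU_chainVec (a : ℕ) (w : (Y a).carrier) :
    stepU (chainVec a w) = max ((Y a).U w) ((Y a).U (-w) + 1) := by
  unfold stepU
  show max (R (lp.single 2 a w : Ch Y)) (R (-(lp.single 2 a w : Ch Y)) + 1) = _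
  rw [R_single, R_neg_single]

lemma stepU_neg_chainVec (a : ℕ) (w : (Y a).carrier) :
    stepU (-(chainVec a w)) = max ((Y a).U (-w)) ((Y a).U w - 1) := by
  rw [stepU_neg]
  show max (R (-(lp.single 2 a w : Ch Y))) (R (lp.single 2 a w : Ch Y) - 1) = _
  rw [R_single, R_neg_single]

theorem chain_lift (a : ℕ) (k : ℕ) (w : (Y a).carrier) (h : Chain (Y a) k w) :
    Chain (step Y) k (chainVec a w) := by
  induction k generalizing w with
  | zero =>
    have h1 := h.1
    have h2 := h.2
    refine ⟨?_, ?_⟩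
    · show stepU (chainVec a w) = 1
      rw [stepU_chainVec, h1, h2]
      simp
    · show stepU (-(chainVec a w)) = 0
      rw [stepU_neg_chainVec, h1, h2]
      simp
  | succ k ih =>
    obtain ⟨h1, h2, e, he1, he2, he3⟩ := h
    refine ⟨?_, ?_, ?_⟩
    · show stepU (chainVec a w) = 1
      rw [stepU_chainVec, h1, h2]
      simp
    · show stepU (-(chainVec a w)) = 0
      rw [stepU_neg_chainVec, h1, h2]
      simp
    · refine ⟨fun m => childMap Y a (e m), ?_, ?_, ?_⟩
      · intro f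
        exact he1 (ContinuousLinearMap.comp (M₁ := (Y a).carrier) f (childIn Y a))
      · intro m
        exact (he2 m).trans (le_norm_child a (e m))
      · intro m
        have := ih _ (he3 m)
        rw [← chainVec_add] at this
        exact this

lemma sum_childMap (s : Finset ℕ) (a : ∀ m, (Y m).carrier) :
    ∑ m ∈ s, childMap Y m (a m) = (((0 : ℝ), (∑ m ∈ s, lp.single 2 m (a m) : Ch Y)) : StepC Y) := by
  classical
  induction s using Finset.induction_on with
  | empty => rfl
  | insert m s hm ih =>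
    rw [Finset.sum_insert hm, Finset.sum_insert hm, ih]
    apply Prod.ext
    · show (0 : ℝ) + 0 = 0
      ring
    · rfl

/-- The root vector. -/
def rootVec (Y : ℕ → Node) : StepC Y := ((1 : ℝ), (0 : Ch Y))

lemma stepU_rootVec : stepU (rootVec Y) = 1 := by
  unfold stepU
  show max (R (0 : Ch Y)) (R (-(0 : Ch Y)) + 1) = 1
  rw [neg_zero, R_zero]
  simp

lemma stepU_neg_rootVec : stepU (-(rootVec Y)) = 0 := by
  rw [stepU_neg]
  show max (R (-(0 : Ch Y))) (R (0 : Ch Y) - 1) = 0
  rw [neg_zero, R_zero]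
  simp

/-- Weakly null sequences in the `ℓ²` sum of copies of one space. -/
lemma tendsto_child (Z : Node) (w : Z.carrier) (f : StrongDual ℝ (StepC fun _ => Z)) :
    Tendsto (fun m => f (childMap (fun _ => Z) m w)) atTop (𝓝 0) := by
  set g : ℕ → ℝ := fun m => f (childMap (fun _ => Z) m w) with hg
  have hbound : ∀ s : Finset ℕ, ∑ m ∈ s, g m ^ 2 ≤ (2 * ‖w‖ * ‖f‖) ^ 2 := by
    intro s
    set A : ℝ := ∑ m ∈ s, g m ^ 2 with hA
    have hA0 : 0 ≤ A := Finset.sum_nonneg fun _ _ => by positivity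
    set v : Ch (fun _ => Z) := ∑ m ∈ s, lp.single 2 m (g m • w) with hv
    have hv2 : ‖v‖ ^ 2 = ∑ m ∈ s, ‖g m • w‖ ^ 2 := by
      have e := lp.norm_sum_single (p := 2) (E := fun _ => Z.carrier) (by norm_num)
        (fun m => g m • w) s
      simp only [ENNReal.toReal_ofNat, Real.rpow_two] at e
      exact e
    have hv3 : ‖v‖ ^ 2 = ‖w‖ ^ 2 * A := by
      rw [hv2, hA, Finset.mul_sum]
      refine Finset.sum_congr rfl fun m _ => ?_
      rw [norm_smul, Real.norm_eq_abs, mul_pow, sq_abs]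
      ring
    have hv4 : ‖v‖ = ‖w‖ * Real.sqrt A := by
      rw [← Real.sqrt_sq (norm_nonneg v), hv3, Real.sqrt_mul (by positivity),
        Real.sqrt_sq (norm_nonneg w)]
    let V : StepC fun _ => Z := ((0 : ℝ), v)
    have hV : f V = A := by
      have e : V = ∑ m ∈ s, g m • childMap (fun _ => Z) m w := by
        have e1 : ∀ m, g m • childMap (fun _ => Z) m w = childMap (fun _ => Z) m (g m • w) :=
          fun m => (map_smul _ _ _).symm
        simp only [e1]
        rw [sum_childMap s (fun m => g m • w)]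
      rw [e, map_sum, hA]
      refine Finset.sum_congr rfl fun m _ => ?_
      rw [map_smul, smul_eq_mul, pow_two]
    have hnV : ‖V‖ ≤ 2 * ‖v‖ := by
      rw [norm_def]
      refine (stepN_le V).trans ?_
      show |(0 : ℝ)| + 2 * ‖v‖ ≤ 2 * ‖v‖
      simp
    have hle : A ≤ (2 * ‖w‖ * ‖f‖) * Real.sqrt A := by
      have h1 : f V ≤ ‖f‖ * ‖V‖ := (le_abs_self _).trans (f.le_opNorm V)
      have h2 : ‖f‖ * ‖V‖ ≤ ‖f‖ * (2 * ‖v‖) := mul_le_mul_of_nonneg_left hnV (norm_nonneg _)
      rw [hV] at h1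
      rw [hv4] at h2
      nlinarith
    exact le_sq_of_le_mul_sqrt hA0 (by positivity) hle
  have hsum : Summable fun m => g m ^ 2 := summable_of_sum_le (fun _ => by positivity) hbound
  have h0 := hsum.tendsto_atTop_zero
  have h1 : Tendsto (fun m => Real.sqrt (g m ^ 2)) atTop (𝓝 0) := by
    simpa using h0.sqrt
  have h2 : (fun m => Real.sqrt (g m ^ 2)) = fun m => |g m| := by
    funext m
    exact Real.sqrt_sq_eq_abs _
  rw [h2] at h1
  exact (tendsto_zero_iff_abs_tendsto_zero _).2 h1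

theorem chain_root (Z : Node) (k : ℕ) (w : Z.carrier) (h : Chain Z k w) :
    Chain (step fun _ => Z) (k + 1) (rootVec fun _ => Z) := by
  refine ⟨stepU_rootVec, stepU_neg_rootVec, ?_⟩
  refine ⟨fun m => childMap (fun _ => Z) m w, fun f => tendsto_child Z w f, ?_, ?_⟩
  · intro m
    have := le_norm_child (Y := fun _ => Z) m w
    rw [h.norm_eq] at this
    exact this
  · intro m
    have h1 : rootVec (fun _ => Z) +
        childMap (fun _ => Z) m w = chainVec (Y := fun _ => Z) m w := by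
      apply Prod.ext
      · show (1 : ℝ) + 0 = 1
        ring
      · show (0 : Ch fun _ => Z) + lp.single 2 m w = lp.single 2 m w
        rw [zero_add]
    have h2 := chain_lift (Y := fun _ => Z) m k w h
    rw [← h1] at h2
    exact h2

/-- The space of height `n + 1` carries a chain of height `n`. -/
theorem chain_hgt (n : ℕ) : ∃ w : (Hgt (n + 1)).carrier, Chain (Hgt (n + 1)) n w := by
  induction n with
  | zero => exact ⟨rootVec fun _ => Hgt 0, stepU_rootVec, stepU_neg_rootVec⟩
  | succ n ih =>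
    obtain ⟨w, hw⟩ := ih
    exact ⟨_, chain_root (Hgt (n + 1)) n w hw⟩

theorem chain_top (n : ℕ) : ∃ w : Top.carrier, Chain Top n w := by
  obtain ⟨w, hw⟩ := chain_hgt n
  exact ⟨_, chain_lift (Y := Hgt) (n + 1) n w hw⟩

/-! ### Growth under an AUC norm -/

/-- A closed subspace of finite codimension almost contains some term of a weakly null sequence. -/
lemma exists_near_of_weakly_null {X : Type} [NormedAddCommGroup X] [NormedSpace ℝ X]
    {F : Submodule ℝ X} (hF : F ∈ cof X) (e : ℕ → X)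
    (he : ∀ f : StrongDual ℝ X, Tendsto (fun m => f (e m)) atTop (𝓝 0)) {η : ℝ} (hη : 0 < η) :
    ∃ m, ∃ y ∈ F, ‖e m - y‖ < η := by
  obtain ⟨hcl, hfin⟩ := hF
  have : IsClosed (F : Set X) := hcl
  have : FiniteDimensional ℝ (X ⧸ F) := hfin
  -- coordinates on the quotient
  let b := Module.finBasis ℝ (X ⧸ F)
  let ι := Module.finrank ℝ (X ⧸ F)
  have hq : ∀ x : X, ‖(Submodule.Quotient.mk x : X ⧸ F)‖ ≤ ‖x‖ :=
    fun x => Submodule.Quotient.norm_mk_le F x
  -- the coordinate functionals on the space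
  have hcoord : ∀ i : Fin ι, ∃ f : StrongDual ℝ X, ∀ x : X,
      f x = b.coord i (Submodule.Quotient.mk x : X ⧸ F) := by
    intro i
    let c : StrongDual ℝ (X ⧸ F) := LinearMap.toContinuousLinearMap (b.coord i)
    refine ⟨LinearMap.mkContinuous
      { toFun := fun x => c (Submodule.Quotient.mk x : X ⧸ F)
        map_add' := fun x y => by
          rw [Submodule.Quotient.mk_add, map_add]
        map_smul' := fun r x => by
          rw [Submodule.Quotient.mk_smul, map_smul]
          rfl } ‖c‖ (fun x => ?_), fun x => rfl⟩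
    refine (c.le_opNorm _).trans ?_
    exact mul_le_mul_of_nonneg_left (hq x) (norm_nonneg _)
  choose f hf using hcoord
  -- the norm in the quotient tends to zero
  have hnorm : ∀ x : X, ‖(Submodule.Quotient.mk x : X ⧸ F)‖ ≤ ∑ i : Fin ι, |f i x| * ‖b i‖ := by
    intro x
    have e1 := b.sum_repr (Submodule.Quotient.mk x : X ⧸ F)
    conv_lhs => rw [← e1]
    refine (norm_sum_le _ _).trans (Finset.sum_le_sum fun i _ => ?_)
    rw [norm_smul, Real.norm_eq_abs, hf]
    rfl
  have hlim : Tendsto (fun m => ∑ i : Fin ι, |f i (e m)| * ‖b i‖) atTop (𝓝 0) := by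
    have : Tendsto (fun m => ∑ i : Fin ι, |f i (e m)| * ‖b i‖) atTop
        (𝓝 (∑ i : Fin ι, |(0 : ℝ)| * ‖b i‖)) :=
      tendsto_finsetSum _ fun i _ => ((he (f i)).abs).mul_const _
    simpa using this
  obtain ⟨m, hm⟩ := ((tendsto_order.1 hlim).2 η hη).exists
  have hmη : ‖(Submodule.Quotient.mk (e m) : X ⧸ F)‖ < η := lt_of_le_of_lt (hnorm _) hm
  obtain ⟨v, hv1, hv2⟩ := Submodule.Quotient.norm_mk_lt (S := F)
    (Submodule.Quotient.mk (e m) : X ⧸ F) (sub_pos.2 hmη)
  refine ⟨m, e m - v, ?_, ?_⟩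
  · rw [← Submodule.Quotient.mk_eq_zero F, Submodule.Quotient.mk_sub, hv1, sub_self]
  · have : e m - (e m - v) = v := by abel
    rw [this]
    linarith

/-- Convexity gives monotonicity of the gain in the parameter. -/
lemma gain_mono {X : Type} [NormedAddCommGroup X] [NormedSpace ℝ X] {N : X → ℝ}
    (hN : IsEquivalentNorm N) {x y : X} {t0 t δ : ℝ} (ht0 : 0 < t0) (htt : t0 ≤ t) (hδ : 0 < δ)
    (hx : N x = 1) (h : 1 + δ ≤ N (x + t0 • y)) : 1 + δ ≤ N (x + t • y) := by
  have ht : 0 < t := by linarith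
  set s := t0 / t with hs
  have hs0 : 0 < s := by positivity
  have hs1 : s ≤ 1 := by
    rw [hs, div_le_one ht]; exact htt
  have e : x + t0 • y = (1 - s) • x + s • (x + t • y) := by
    have : s * t = t0 := by rw [hs]; field_simp
    rw [smul_add, smul_smul, this, sub_smul, one_smul]
    abel
  have h1 : N (x + t0 • y) ≤ (1 - s) * N x + s * N (x + t • y) := by
    rw [e]
    refine (hN.add_le _ _).trans ?_
    rw [hN.smul_eq, hN.smul_eq, abs_of_nonneg (by linarith : (0 : ℝ) ≤ 1 - s), abs_of_pos hs0]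
  rw [hx] at h1
  have h2 : s * (1 + δ) ≤ s * N (x + t • y) := by nlinarith
  have h3 : 1 + δ ≤ N (x + t • y) := by
    by_contra hcon
    push Not at hcon
    nlinarith
  exact h3

/-- One step of growth along a chain. -/
lemma growth_step {X : Type} [NormedAddCommGroup X] [NormedSpace ℝ X] {N : X → ℝ}
    (hN : IsEquivalentNorm N) (hA : IsAUC N) {a b : ℝ} (ha : 0 < a) (hb : 0 < b)
    (hab : ∀ x, a * ‖x‖ ≤ N x ∧ N x ≤ b * ‖x‖) :
    ∃ δ1 : ℝ, 0 < δ1 ∧ ∀ (w : X) (e : ℕ → X), ‖w‖ = 1 →
      (∀ f : StrongDual ℝ X, Tendsto (fun m => f (e m)) atTop (𝓝 0)) → (∀ m, 1 ≤ ‖e m‖) →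
      ∃ m, (1 + δ1) * N w ≤ N (w + e m) := by
  set t0 : ℝ := a / (2 * b) with ht0
  have ht0pos : 0 < t0 := by positivity
  obtain ⟨δ0, hδ0, hauc⟩ := hA t0 ht0pos
  refine ⟨δ0 / 2, by positivity, fun w e hw he hem => ?_⟩
  set ν := N w with hν
  have hνa : a ≤ ν := by have := (hab w).1; rwa [hw, mul_one] at this
  have hνb : ν ≤ b := by have := (hab w).2; rwa [hw, mul_one] at this
  have hνpos : 0 < ν := by linarith
  set x : X := ν⁻¹ • w with hx
  have hxN : N x = 1 := by
    rw [hx, hN.smul_eq, abs_of_pos (by positivity), ← hν]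
    field_simp
  obtain ⟨F, hF, hFy⟩ := hauc x hxN
  set η : ℝ := min (1 / 2) (a * δ0 / (2 * b)) with hη
  have hηpos : 0 < η := lt_min (by norm_num) (by positivity)
  obtain ⟨m, y1, hy1F, hy1⟩ := exists_near_of_weakly_null hF e he hηpos
  have hη1 : η ≤ 1 / 2 := min_le_left _ _
  have hη2 : η ≤ a * δ0 / (2 * b) := min_le_right _ _
  have hy1low : 1 / 2 ≤ ‖y1‖ := by
    have h1 : ‖e m‖ ≤ ‖e m - y1‖ + ‖y1‖ := by simpa using norm_add_le (e m - y1) y1
    have h2 := hem m
    linarith
  have hNy1 : a / 2 ≤ N y1 := by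
    have := (hab y1).1
    nlinarith
  have hNy1pos : 0 < N y1 := by linarith [show 0 < a / 2 by positivity]
  set y : X := (N y1)⁻¹ • y1 with hy
  have hyF : y ∈ F := F.smul_mem _ hy1F
  have hyN : N y = 1 := by
    rw [hy, hN.smul_eq, abs_of_pos (by positivity)]
    field_simp
  set t : ℝ := N y1 / ν with ht
  have htt0 : t0 ≤ t := by
    rw [ht0, ht, div_le_div_iff₀ (by positivity) hνpos]
    nlinarith
  have h1 := gain_mono hN ht0pos htt0 hδ0 hxN (hFy y hyF hyN)
  have h2 : w + y1 = ν • (x + t • y) := by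
    have e1 : ν • x = w := by
      rw [hx, smul_smul, mul_inv_cancel₀ hνpos.ne', one_smul]
    have e2 : ν • t • y = y1 := by
      rw [hy, ht, smul_smul, smul_smul]
      have : ν * (N y1 / ν) * (N y1)⁻¹ = 1 := by field_simp
      rw [this, one_smul]
    rw [smul_add, e1, e2]
  have h3 : ν * (1 + δ0) ≤ N (w + y1) := by
    rw [h2, hN.smul_eq, abs_of_pos hνpos]
    exact mul_le_mul_of_nonneg_left h1 hνpos.le
  have h4 : N (w + y1) ≤ N (w + e m) + N (y1 - e m) := by
    have : w + y1 = (w + e m) + (y1 - e m) := by abel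
    rw [this]
    exact hN.add_le _ _
  have h5 : N (y1 - e m) ≤ b * η := by
    have h6 := (hab (y1 - e m)).2
    have h7 : ‖y1 - e m‖ < η := by rwa [norm_sub_rev]
    nlinarith
  refine ⟨m, ?_⟩
  have h8 : b * η ≤ a * δ0 / 2 := by
    have h9 : b * η ≤ b * (a * δ0 / (2 * b)) := mul_le_mul_of_nonneg_left hη2 hb.le
    have h10 : b * (a * δ0 / (2 * b)) = a * δ0 / 2 := by field_simp
    linarith
  have h11 : a * δ0 / 2 ≤ ν * δ0 / 2 := by nlinarith
  nlinarith

/-- No equivalent norm on the final space is AUC. -/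
theorem top_not_auc (N : Top.carrier → ℝ) (hN : IsEquivalentNorm N) : ¬ IsAUC N := by
  intro hA
  obtain ⟨a, b, ha, hb, hab⟩ := hN.bounds
  obtain ⟨δ1, hδ1, hgrow⟩ := growth_step hN hA ha hb hab
  -- growth along chains
  have hchain : ∀ (k : ℕ) (w : Top.carrier), Chain Top k w →
      ∃ w' : Top.carrier, ‖w'‖ = 1 ∧ (1 + δ1) ^ k * N w ≤ N w' := by
    intro k
    induction k with
    | zero =>
      intro w hw
      exact ⟨w, hw.norm_eq, by simp⟩
    | succ k ih =>
      intro w hw
      have hwn := hw.norm_eq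
      obtain ⟨_, _, e, he1, he2, he3⟩ := hw
      obtain ⟨m, hm⟩ := hgrow w e hwn he1 he2
      obtain ⟨w', hw'1, hw'2⟩ := ih _ (he3 m)
      refine ⟨w', hw'1, ?_⟩
      have hpow : 0 ≤ (1 + δ1) ^ k := by positivity
      calc (1 + δ1) ^ (k + 1) * N w = (1 + δ1) ^ k * ((1 + δ1) * N w) := by ring
        _ ≤ (1 + δ1) ^ k * N (w + e m) := mul_le_mul_of_nonneg_left hm hpow
        _ ≤ N w' := hw'2
  -- contradiction for a long chain
  obtain ⟨n, hn⟩ := pow_unbounded_of_one_lt (b / a) (by linarith : 1 < 1 + δ1)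
  obtain ⟨w, hw⟩ := chain_top n
  obtain ⟨w', hw'1, hw'2⟩ := hchain n w hw
  have h1 : a ≤ N w := by
    have := (hab w).1
    rwa [hw.norm_eq, mul_one] at this
  have h2 : N w' ≤ b := by
    have := (hab w').2
    rwa [hw'1, mul_one] at this
  have h3 : (1 + δ1) ^ n * a ≤ b := by
    have h4 : (1 + δ1) ^ n * a ≤ (1 + δ1) ^ n * N w :=
      mul_le_mul_of_nonneg_left h1 (by positivity)
    linarith
  rw [div_lt_iff₀ ha] at hn
  linarith

/-- The given norm of any normed space is an equivalent norm. -/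
lemma isEquivalentNorm_norm (X : Type) [NormedAddCommGroup X] [NormedSpace ℝ X] :
    IsEquivalentNorm (fun x : X => ‖x‖) where
  add_le := norm_add_le
  smul_eq c x := by rw [norm_smul, Real.norm_eq_abs]
  bounds := ⟨1, 1, one_pos, one_pos, fun x => by simp⟩

/-- The final space is infinite dimensional. -/
theorem top_not_findim : ¬ FiniteDimensional ℝ Top.carrier := by
  intro hfin
  apply top_not_auc _ (isEquivalentNorm_norm Top.carrier)
  intro t _
  refine ⟨1, one_pos, fun x _ => ⟨⊥, ⟨?_, ?_⟩, fun y hy hy1 => ?_⟩⟩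
  · simp
  · exact (Submodule.Quotient.equiv ⊥ ⊥ (LinearEquiv.refl ℝ _) (by simp) |>.finiteDimensional)
  · rw [Submodule.mem_bot] at hy
    subst hy
    simp at hy1

/-- The main theorem. -/
theorem main : ∃ (X : Type) (_ : NormedAddCommGroup X) (_ : NormedSpace ℝ X),
    CompleteSpace X ∧ ¬ FiniteDimensional ℝ X ∧
    Function.Surjective (NormedSpace.inclusionInDoubleDual ℝ X) ∧
    IsAMUC (fun x : X => ‖x‖) ∧
    ∀ N : X → ℝ, IsEquivalentNorm N → ¬ IsAUC N :=
  ⟨Top.carrier, inferInstance, inferInstance, Top.cpl, top_not_findim, Top.refl, Top.isAMUC,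
    top_not_auc⟩

end

end Vale.Agent.Lib.P069t
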